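import Crest.Agent.R345.BkData

set_option autoImplicit false
set_option maxRecDepth 100000

namespace Crest.Agent.R345.Bk

theorem symA : Fast.chkSym 15 24 cw KA = true := by decide +kernel

theorem symB : Fast.chkSym 15 24 cw KB = true := by decide +kernel

theorem modP : Fast.chkP 20 101207 (Fast.get 50 MM) (fun k i => Int.ofNat ((W.getD k []).getD i 0)) = true := by
  decide +kernel

end Crest.Agent.R345.Bk
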