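import Crest.Agent.R345.BkData

set_option autoImplicit false
set_option maxRecDepth 100000

namespace Crest.Agent.R345.Bk

theorem kill0 : Fast.chkM 15 15 24 24 50 KA KB MM 0 = true := by decide +kernel

theorem kill1 : Fast.chkM 15 15 24 24 50 KA KB MM 1 = true := by decide +kernel

theorem kill2 : Fast.chkM 15 15 24 24 50 KA KB MM 2 = true := by decide +kernel

theorem kill3 : Fast.chkM 15 15 24 24 50 KA KB MM 3 = true := by decide +kernel

theorem kill4 : Fast.chkM 15 15 24 24 50 KA KB MM 4 = true := by decide +kernel

theorem kill5 : Fast.chkM 15 15 24 24 50 KA KB MM 5 = true := by decide +kernel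

theorem kill6 : Fast.chkM 15 15 24 24 50 KA KB MM 6 = true := by decide +kernel

theorem kill7 : Fast.chkM 15 15 24 24 50 KA KB MM 7 = true := by decide +kernel

theorem kill8 : Fast.chkM 15 15 24 24 50 KA KB MM 8 = true := by decide +kernel

theorem kill9 : Fast.chkM 15 15 24 24 50 KA KB MM 9 = true := by decide +kernel

theorem kill10 : Fast.chkM 15 15 24 24 50 KA KB MM 10 = true := by decide +kernel

theorem kill11 : Fast.chkM 15 15 24 24 50 KA KB MM 11 = true := by decide +kernel

theorem kill12 : Fast.chkM 15 15 24 24 50 KA KB MM 12 = true := by decide +kernel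

theorem kill13 : Fast.chkM 15 15 24 24 50 KA KB MM 13 = true := by decide +kernel

theorem kill14 : Fast.chkM 15 15 24 24 50 KA KB MM 14 = true := by decide +kernel

theorem kill15 : Fast.chkM 15 15 24 24 50 KA KB MM 15 = true := by decide +kernel

theorem kill16 : Fast.chkM 15 15 24 24 50 KA KB MM 16 = true := by decide +kernel

theorem kill17 : Fast.chkM 15 15 24 24 50 KA KB MM 17 = true := by decide +kernel

theorem kill18 : Fast.chkM 15 15 24 24 50 KA KB MM 18 = true := by decide +kernel

theorem kill19 : Fast.chkM 15 15 24 24 50 KA KB MM 19 = true := by decide +kernel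

theorem kill (k : Fin 20) : Fast.chkM 15 15 24 24 50 KA KB MM k = true := by
  fin_cases k
  exacts [kill0, kill1, kill2, kill3, kill4, kill5, kill6, kill7, kill8, kill9, kill10, kill11, kill12, kill13, kill14, kill15, kill16, kill17, kill18, kill19]

end Crest.Agent.R345.Bk
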