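import Mathlib

set_option autoImplicit false

namespace Crest.Agent.R345

/-- move the `j`-th entry to the front -/
def mv {α : Type} : ℕ → List α → List α
  | 0, x => x
  | _ + 1, [] => []
  | j + 1, a :: x =>
    match mv j x with
    | [] => [a]
    | b :: y => b :: a :: y

/-- index of the first entry that is nonzero mod `p` -/
def piv (p : ℕ) : List ℕ → ℕ
  | [] => 0
  | a :: x => cond (Nat.beq (Nat.mod a p) 0) (Nat.succ (piv p x)) 0

def comb (p a nb : ℕ) : List ℕ → List ℕ → List ℕ
  | s :: x, t :: z => Nat.mod (Nat.add (Nat.mul a t) (Nat.mul nb s)) p :: comb p a nb x z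
  | _, _ => []

def red (p a : ℕ) (x : List ℕ) : List ℕ → List ℕ
  | [] => []
  | b :: z => comb p a (Nat.sub p (Nat.mod b p)) x z

def br (p : ℕ) (x : List ℕ) (A : List (List ℕ)) (k : List (List ℕ) → Bool) : Bool :=
  match mv (piv p x) x with
  | [] => true
  | a :: x' =>
    cond (Nat.beq (Nat.mod a p) 0) (k A)
      (match x' with
       | [] => true
       | _ :: _ => k (A.map fun z => red p a x' (mv (piv p x) z)))

def chk2 (p : ℕ) : ℕ → List (List ℕ) → List (List ℕ) → Bool
  | 0, _, _ => false
  | n + 1, x :: A, y :: B =>
    (br p x A fun A' => chk2 p n A' B) && (br p y B fun B' => chk2 p n A B')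
  | _ + 1, _, _ => false

/-- first point goes to side one without loss of generality -/
def chk (p : ℕ) : List (List ℕ) → Bool
  | [] => false
  | x :: A => br p x A fun A' => chk2 p A.length A' A


/-- follow a prescribed prefix of side choices, then run the full search -/
def chkP (p : ℕ) : List Bool → ℕ → List (List ℕ) → List (List ℕ) → Bool
  | [], n, A, B => chk2 p n A B
  | b :: bs, n + 1, x :: A, y :: B =>
    cond b (br p x A fun A' => chkP p bs n A' B) (br p y B fun B' => chkP p bs n A B')
  | _ :: _, _, _, _ => false

/-- one piece of `chk` -/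
def chkS (p : ℕ) (bs : List Bool) : List (List ℕ) → Bool
  | [] => false
  | x :: A => br p x A fun A' => chkP p bs A.length A' A

theorem br_mono {ι : Type} (i0 : ι) (p : ℕ) (x : List ℕ) (A : List (List ℕ))
    (k : ι → List (List ℕ) → Bool) (k' : List (List ℕ) → Bool)
    (hk : ∀ A', (∀ i, k i A' = true) → k' A' = true) (h : ∀ i, br p x A (k i) = true) :
    br p x A k' = true := by
  unfold br at h ⊢
  cases hx1 : mv (piv p x) x with
  | nil => rfl
  | cons a x' =>
    simp only [hx1] at h ⊢
    cases ha : Nat.beq (Nat.mod a p) 0 with
    | true =>
      simp only [ha, cond_true] at h ⊢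
      exact hk _ h
    | false =>
      simp only [ha, cond_false] at h ⊢
      cases x' with
      | nil => rfl
      | cons s x'' => exact hk _ h

theorem chk2_of_chkP (p m n : ℕ) (A B : List (List ℕ))
    (h : ∀ bs : List Bool, bs.length = m → chkP p bs n A B = true) : chk2 p n A B = true := by
  induction m generalizing n A B with
  | zero => exact h [] rfl
  | succ m ih =>
    have h0 := h (true :: List.replicate m true) (by simp)
    match n, A, B, h, h0 with
    | n + 1, x :: A, y :: B, h, _ =>
      simp only [chk2, Bool.and_eq_true]
      constructor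
      · refine br_mono (ι := {bs : List Bool // bs.length = m}) ⟨List.replicate m true, by simp⟩
          p x A (fun bs A' => chkP p bs.1 n A' B) _
          (fun A' hA => ih n A' B fun bs hb => hA ⟨bs, hb⟩) fun bs => ?_
        exact h (true :: bs.1) (by simp [bs.2])
      · refine br_mono (ι := {bs : List Bool // bs.length = m}) ⟨List.replicate m true, by simp⟩
          p y B (fun bs B' => chkP p bs.1 n A B') _
          (fun B' hB => ih n A B' fun bs hb => hB ⟨bs, hb⟩) fun bs => ?_
        exact h (false :: bs.1) (by simp [bs.2])
    | 0, _, _, _, h0 => simp [chkP] at h0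
    | _ + 1, [], _, _, h0 => simp [chkP] at h0
    | _ + 1, _ :: _, [], _, h0 => simp [chkP] at h0

theorem chk_of_chkS (p m : ℕ) (W : List (List ℕ))
    (h : ∀ bs : List Bool, bs.length = m → chkS p bs W = true) : chk p W = true := by
  cases W with
  | nil => simpa [chkS] using h (List.replicate m true) (by simp)
  | cons x A =>
    exact br_mono (ι := {bs : List Bool // bs.length = m}) ⟨List.replicate m true, by simp⟩
      p x A (fun bs A' => chkP p bs.1 A.length A' A) _
      (fun A' hA => chk2_of_chkP p m _ A' A fun bs hb => hA ⟨bs, hb⟩) fun bs => h bs.1 bs.2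

/-- five-level split: 32 pieces -/
theorem chk_of_five (p : ℕ) (W : List (List ℕ))
    (h : ∀ a b c d e : Bool, chkS p [a, b, c, d, e] W = true) : chk p W = true := by
  refine chk_of_chkS p 5 W fun bs hb => ?_
  match bs, hb with
  | [a, b, c, d, e], _ => exact h a b c d e

section sound

variable {F : Type} [Field F]

/-- dot product of a list of naturals with a list of field elements -/
def dot : List ℕ → List F → F
  | a :: x, c :: u => (a : F) * c + dot x u
  | _, _ => 0

def Kills (x : List ℕ) (u : List F) : Prop := x.length = u.length ∧ dot x u = 0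

def Zr (u : List F) : Prop := ∀ c ∈ u, c = 0

theorem mv_length {α : Type} (j : ℕ) (x : List α) : (mv j x).length = x.length := by
  induction j generalizing x with
  | zero => rfl
  | succ j ih =>
    cases x with
    | nil => rfl
    | cons a x =>
      have := ih x
      simp only [mv]
      cases h : mv j x with
      | nil => rw [h] at this; simp [← this]
      | cons b y => rw [h] at this; simp [← this]

theorem mem_mv {α : Type} (j : ℕ) (x : List α) (c : α) : c ∈ mv j x ↔ c ∈ x := by
  induction j generalizing x with
  | zero => rfl
  | succ j ih =>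
    cases x with
    | nil => rfl
    | cons a x =>
      have := ih x
      simp only [mv]
      cases h : mv j x with
      | nil =>
        rw [h] at this
        simp [← this]
      | cons b y =>
        rw [h] at this
        simp only [List.mem_cons] at this ⊢
        tauto

theorem dot_mv (j : ℕ) (x : List ℕ) (u : List F) (hl : x.length = u.length) :
    dot (mv j x) (mv j u) = dot x u := by
  induction j generalizing x u with
  | zero => rfl
  | succ j ih =>
    cases x with
    | nil =>
      cases u with
      | nil => rfl
      | cons c u => simp at hl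
    | cons a x =>
      cases u with
      | nil => simp at hl
      | cons c u =>
        have hl' : x.length = u.length := by simpa using hl
        have h1 := ih x u hl'
        have h2 := mv_length j x
        have h3 := mv_length j u
        simp only [mv]
        cases h : mv j x with
        | nil =>
          cases h' : mv j u with
          | nil =>
            rw [h, h'] at h1
            simp only [dot] at h1 ⊢
            rw [← h1]
          | cons e w => rw [h] at h2; rw [h'] at h3; simp at h2 h3; omega
        | cons b y =>
          cases h' : mv j u with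
          | nil => rw [h] at h2; rw [h'] at h3; simp at h2 h3; omega
          | cons e w =>
            rw [h, h'] at h1
            simp only [dot] at h1 ⊢
            rw [← h1]; ring

theorem Kills.mv {x : List ℕ} {u : List F} (h : Kills x u) (j : ℕ) : Kills (mv j x) (mv j u) :=
  ⟨by rw [mv_length, mv_length, h.1], by rw [dot_mv j x u h.1, h.2]⟩

theorem comb_spec (p : ℕ) [CharP F p] (a nb : ℕ) (x z : List ℕ) (u : List F)
    (h1 : x.length = u.length) (h2 : z.length = u.length) :
    (comb p a nb x z).length = u.length ∧
      dot (comb p a nb x z) u = (a : F) * dot z u + (nb : F) * dot x u := by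
  induction u generalizing x z with
  | nil =>
    cases x with
    | nil => cases z <;> simp [comb, dot]
    | cons s x => simp at h1
  | cons c u ih =>
    cases x with
    | nil => simp at h1
    | cons s x =>
      cases z with
      | nil => simp at h2
      | cons t z =>
        obtain ⟨i1, i2⟩ := ih x z (by simpa using h1) (by simpa using h2)
        refine ⟨by simp [comb, i1], ?_⟩
        simp only [comb, dot, i2]
        have : ((Nat.mod (Nat.add (Nat.mul a t) (Nat.mul nb s)) p : ℕ) : F)
            = (a : F) * t + (nb : F) * s := by
          show (((a * t + nb * s) % p : ℕ) : F) = _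
          rw [CharP.natCast_eq_natCast_mod F p (a * t + nb * s) |>.symm]
          push_cast; ring
        rw [this]; ring

theorem red_kills (p : ℕ) (hp : 0 < p) [CharP F p] (a : ℕ) (x z : List ℕ) (c : F) (u : List F)
    (hx : Kills (a :: x) (c :: u)) (hz : Kills z (c :: u)) : Kills (red p a x z) u := by
  cases z with
  | nil => have := hz.1; simp at this
  | cons b z =>
    obtain ⟨l1, d1⟩ := hx
    obtain ⟨l2, d2⟩ := hz
    obtain ⟨i1, i2⟩ := comb_spec (F := F) p a (Nat.sub p (Nat.mod b p)) x z u
      (by simpa using l1) (by simpa using l2)
    refine ⟨i1, ?_⟩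
    show dot (comb p a (Nat.sub p (Nat.mod b p)) x z) u = 0
    rw [i2]
    have hb : ((Nat.sub p (Nat.mod b p) : ℕ) : F) = -(b : F) := by
      show ((p - b % p : ℕ) : F) = _
      rw [Nat.cast_sub (Nat.mod_lt b hp).le, CharP.cast_eq_zero,
        ← CharP.natCast_eq_natCast_mod F p b]
      ring
    rw [hb]
    simp only [dot] at d1 d2
    linear_combination (a : F) * d2 - (b : F) * d1

theorem dot_zr (x : List ℕ) (u : List F) (h : Zr u) : dot x u = 0 := by
  induction u generalizing x with
  | nil => cases x <;> rfl
  | cons c u ih =>
    cases x with
    | nil => rfl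
    | cons a x =>
      simp only [dot]
      rw [h c (by simp), ih x fun d hd => h d (by simp [hd])]
      ring

theorem br_sound (p : ℕ) (hp : 0 < p) [CharP F p] (x : List ℕ) (A : List (List ℕ))
    (k : List (List ℕ) → Bool) {β : Type} (B : List β) (Q : β → Prop) (G : Prop)
    (hk : ∀ (A' : List (List ℕ)) (u' : List F), k A' = true →
      List.Forall₂ (fun z y => Kills z u' ∨ Q y) A' B → Zr u' ∨ G)
    (u : List F) (hx : Kills x u) (hA : List.Forall₂ (fun z y => Kills z u ∨ Q y) A B)
    (h : br p x A k = true) : Zr u ∨ G := by
  have hm := hx.mv (piv p x)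
  have hz : Zr (mv (piv p x) u) → Zr u := fun hz c hc => hz c ((mem_mv _ _ _).2 hc)
  unfold br at h
  cases hx1 : mv (piv p x) x with
  | nil =>
    left
    have := hm.1
    rw [hx1, mv_length] at this
    have : u = [] := List.length_eq_zero_iff.1 (by simpa using this.symm)
    subst this
    intro c hc; simp at hc
  | cons a x' =>
    rw [hx1] at h hm
    simp only at h
    cases ha : Nat.beq (Nat.mod a p) 0 with
    | true =>
      rw [ha] at h
      exact hk A u h hA
    | false =>
      rw [ha] at h
      have ha' : (a : F) ≠ 0 := by
        rw [Ne, CharP.cast_eq_zero_iff F p]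
        intro hd
        have : Nat.mod a p = 0 := Nat.mod_eq_zero_of_dvd hd
        rw [this] at ha
        exact absurd ha (by decide)
      cases hu : mv (piv p x) u with
      | nil => rw [hu] at hm; have := hm.1; simp at this
      | cons c u' =>
        rw [hu] at hm hz
        have fin : Zr u' → Zr u := by
          intro h0
          apply hz
          have := hm.2
          simp only [dot] at this
          rw [dot_zr x' u' h0, add_zero] at this
          have hc : c = 0 := (mul_eq_zero.1 this).resolve_left ha'
          intro d hd
          rcases List.mem_cons.1 hd with rfl | hd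
          · exact hc
          · exact h0 d hd
        cases x' with
        | nil =>
          left
          apply fin
          have := hm.1
          have : u' = [] := List.length_eq_zero_iff.1 (by simpa using this.symm)
          subst this
          intro c hc; simp at hc
        | cons s x'' =>
          simp only [cond_false] at h
          refine (hk _ u' h ?_).imp fin id
          rw [List.forall₂_map_left_iff]
          refine hA.imp ?_
          intro z y hzy
          refine hzy.imp (fun hz' => ?_) id
          have := hz'.mv (piv p x)
          rw [hu] at this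
          exact red_kills p hp a (s :: x'') _ c u' hm this

theorem chk2_sound (p : ℕ) (hp : 0 < p) [CharP F p] (n : ℕ) (A B : List (List ℕ)) (u v : List F)
    (h : chk2 p n A B = true) (H : List.Forall₂ (fun x y => Kills x u ∨ Kills y v) A B) :
    Zr u ∨ Zr v := by
  induction n generalizing A B u v with
  | zero => simp [chk2] at h
  | succ n ih =>
    cases H with
    | nil => simp [chk2] at h
    | @cons x y A B hxy H =>
      simp only [chk2, Bool.and_eq_true] at h
      rcases hxy with hx | hy
      · exact br_sound p hp x A _ B (fun y => Kills y v) (Zr v)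
          (fun A' u' hk hA => ih A' B u' v hk hA) u hx H h.1
      · refine (br_sound p hp y B _ A (fun x => Kills x u) (Zr u)
          (fun B' v' hk hB => (ih A B' u v' hk ?_).symm) v hy ?_ h.2).symm
        · exact hB.flip.imp fun _ _ h => Or.symm h
        · exact H.flip.imp fun _ _ h => Or.symm h

theorem chk_sound (p : ℕ) (hp : 0 < p) [CharP F p] (W : List (List ℕ)) (h : chk p W = true)
    (u v : List F) (H : ∀ w ∈ W, Kills w u ∨ Kills w v) : Zr u ∨ Zr v := by
  cases W with
  | nil => simp [chk] at h
  | cons x A =>
    have key : ∀ u v : List F, Kills x u → (∀ w ∈ A, Kills w u ∨ Kills w v) → Zr u ∨ Zr v := by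
      intro u v hx hA
      exact br_sound p hp x A _ A (fun y => Kills y v) (Zr v)
        (fun A' u' hk hA' => chk2_sound p hp A.length A' A u' v hk hA') u hx
        (List.forall₂_same.2 hA) h
    rcases H x (by simp) with hx | hx
    · exact key u v hx fun w hw => H w (by simp [hw])
    · exact (key v u hx fun w hw => (H w (by simp [hw])).symm).symm

theorem dot_ofFn {n : ℕ} (x : List ℕ) (u : Fin n → F) :
    dot x (List.ofFn u) = ∑ i : Fin n, ((x.getD i 0 : ℕ) : F) * u i := by
  induction n generalizing x with
  | zero => cases x <;> simp [dot]
  | succ n ih =>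
    cases x with
    | nil => simp [dot]
    | cons a x =>
      rw [List.ofFn_succ, Fin.sum_univ_succ]
      simp only [dot, ih]
      simp

/-- Soundness of the split checker, list form. -/
theorem cover (p : ℕ) (hp : 0 < p) [CharP F p] {n : ℕ} (W : List (List ℕ))
    (hl : ∀ w ∈ W, w.length = n) (h : chk p W = true) (u v : Fin n → F)
    (H : ∀ w ∈ W, (∑ i : Fin n, ((w.getD i 0 : ℕ) : F) * u i) *
      (∑ i : Fin n, ((w.getD i 0 : ℕ) : F) * v i) = 0) : u = 0 ∨ v = 0 := by
  have := chk_sound p hp W h (List.ofFn u) (List.ofFn v) (fun w hw => by
    rcases mul_eq_zero.1 (H w hw) with h0 | h0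
    · left; exact ⟨by simp [hl w hw], by rw [dot_ofFn, h0]⟩
    · right; exact ⟨by simp [hl w hw], by rw [dot_ofFn, h0]⟩)
  refine this.imp (fun h => ?_) (fun h => ?_) <;>
  · funext i
    exact h _ (by simp [List.mem_ofFn])

/-- Soundness of the split checker, integer-matrix form (helper18's `hsplit`). -/
theorem cover_int (p : ℕ) (hp : 0 < p) [CharP F p] {K n : ℕ} (a : Fin K → Fin n → ℤ)
    (h : chk p (List.ofFn fun k => List.ofFn fun i => (a k i % (p : ℤ)).toNat) = true)
    (u v : Fin n → F)
    (H : ∀ k, (∑ i, (a k i : F) * u i) * (∑ j, (a k j : F) * v j) = 0) : u = 0 ∨ v = 0 := by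
  refine cover p hp _ ?_ h u v ?_
  · intro w hw
    obtain ⟨k, rfl⟩ := List.mem_ofFn.1 hw
    simp
  · intro w hw
    obtain ⟨k, rfl⟩ := List.mem_ofFn.1 hw
    have e : ∀ i : Fin n, (((List.ofFn fun i => (a k i % (p : ℤ)).toNat).getD i 0 : ℕ) : F)
        = (a k i : F) := by
      intro i
      have h1 : (List.ofFn fun i => (a k i % (p : ℤ)).toNat).getD i 0
          = (a k i % (p : ℤ)).toNat := by simp [List.getD_eq_getElem?_getD]
      rw [h1]
      have h2 : (((a k i % (p : ℤ)).toNat : ℕ) : ℤ) = a k i % p :=
        Int.toNat_of_nonneg (Int.emod_nonneg _ (by omega))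
      rw [← Int.cast_natCast, h2, CharP.intCast_eq_intCast_mod F p (a := a k i)]
    simp only [e]
    exact H k

end sound

end Crest.Agent.R345
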