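import Crest.Agent.R345.BkData
import Crest.Agent.R345.Cover

set_option autoImplicit false
set_option maxRecDepth 100000

namespace Crest.Agent.R345.Bk

theorem sp_ffttt : chkS 101207 [false, false, true, true, true] W = true := by decide +kernel

theorem sp_ffttf : chkS 101207 [false, false, true, true, false] W = true := by decide +kernel

theorem sp_fftft : chkS 101207 [false, false, true, false, true] W = true := by decide +kernel

theorem sp_fftff : chkS 101207 [false, false, true, false, false] W = true := by decide +kernel

theorem sp_ffftt : chkS 101207 [false, false, false, true, true] W = true := by decide +kernel

theorem sp_ffftf : chkS 101207 [false, false, false, true, false] W = true := by decide +kernel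

theorem sp_fffft : chkS 101207 [false, false, false, false, true] W = true := by decide +kernel

theorem sp_fffff : chkS 101207 [false, false, false, false, false] W = true := by decide +kernel

theorem sp_ff (c d e : Bool) : chkS 101207 [false, false, c, d, e] W = true := by
  cases c <;> cases d <;> cases e
  exacts [sp_fffff, sp_fffft, sp_ffftf, sp_ffftt, sp_fftff, sp_fftft, sp_ffttf, sp_ffttt]

end Crest.Agent.R345.Bk
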