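import Crest.Agent.R345.BkData
import Crest.Agent.R345.Cover

set_option autoImplicit false
set_option maxRecDepth 100000

namespace Crest.Agent.R345.Bk

theorem sp_ftttt : chkS 101207 [false, true, true, true, true] W = true := by decide +kernel

theorem sp_ftttf : chkS 101207 [false, true, true, true, false] W = true := by decide +kernel

theorem sp_fttft : chkS 101207 [false, true, true, false, true] W = true := by decide +kernel

theorem sp_fttff : chkS 101207 [false, true, true, false, false] W = true := by decide +kernel

theorem sp_ftftt : chkS 101207 [false, true, false, true, true] W = true := by decide +kernel

theorem sp_ftftf : chkS 101207 [false, true, false, true, false] W = true := by decide +kernel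

theorem sp_ftfft : chkS 101207 [false, true, false, false, true] W = true := by decide +kernel

theorem sp_ftfff : chkS 101207 [false, true, false, false, false] W = true := by decide +kernel

theorem sp_ft (c d e : Bool) : chkS 101207 [false, true, c, d, e] W = true := by
  cases c <;> cases d <;> cases e
  exacts [sp_ftfff, sp_ftfft, sp_ftftf, sp_ftftt, sp_fttff, sp_fttft, sp_ftttf, sp_ftttt]

end Crest.Agent.R345.Bk
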