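import Crest.Agent.R345.BkData
import Crest.Agent.R345.Cover

set_option autoImplicit false
set_option maxRecDepth 100000

namespace Crest.Agent.R345.Bk

theorem sp_tfttt : chkS 101207 [true, false, true, true, true] W = true := by decide +kernel

theorem sp_tfttf : chkS 101207 [true, false, true, true, false] W = true := by decide +kernel

theorem sp_tftft : chkS 101207 [true, false, true, false, true] W = true := by decide +kernel

theorem sp_tftff : chkS 101207 [true, false, true, false, false] W = true := by decide +kernel

theorem sp_tfftt : chkS 101207 [true, false, false, true, true] W = true := by decide +kernel

theorem sp_tfftf : chkS 101207 [true, false, false, true, false] W = true := by decide +kernel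

theorem sp_tffft : chkS 101207 [true, false, false, false, true] W = true := by decide +kernel

theorem sp_tffff : chkS 101207 [true, false, false, false, false] W = true := by decide +kernel

theorem sp_tf (c d e : Bool) : chkS 101207 [true, false, c, d, e] W = true := by
  cases c <;> cases d <;> cases e
  exacts [sp_tffff, sp_tffft, sp_tfftf, sp_tfftt, sp_tftff, sp_tftft, sp_tfttf, sp_tfttt]

end Crest.Agent.R345.Bk
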