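import Crest.Agent.R345.BkData
import Crest.Agent.R345.Cover

set_option autoImplicit false
set_option maxRecDepth 100000

namespace Crest.Agent.R345.Bk

theorem sp_ttttt : chkS 101207 [true, true, true, true, true] W = true := by decide +kernel

theorem sp_ttttf : chkS 101207 [true, true, true, true, false] W = true := by decide +kernel

theorem sp_tttft : chkS 101207 [true, true, true, false, true] W = true := by decide +kernel

theorem sp_tttff : chkS 101207 [true, true, true, false, false] W = true := by decide +kernel

theorem sp_ttftt : chkS 101207 [true, true, false, true, true] W = true := by decide +kernel

theorem sp_ttftf : chkS 101207 [true, true, false, true, false] W = true := by decide +kernel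

theorem sp_ttfft : chkS 101207 [true, true, false, false, true] W = true := by decide +kernel

theorem sp_ttfff : chkS 101207 [true, true, false, false, false] W = true := by decide +kernel

theorem sp_tt (c d e : Bool) : chkS 101207 [true, true, c, d, e] W = true := by
  cases c <;> cases d <;> cases e
  exacts [sp_ttfff, sp_ttfft, sp_ttftf, sp_ttftt, sp_tttff, sp_tttft, sp_ttttf, sp_ttttt]

end Crest.Agent.R345.Bk
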