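import Crest.Agent.R345.Chan

/-! Assembly of the pair of PPT maps from an integer certificate. -/

set_option autoImplicit false
set_option linter.unusedSectionVars false

namespace Crest.Agent.R345

open Crest.Quantum Matrix
open scoped ComplexOrder Kronecker MatrixOrder

/-- weighted Kraus map with integer Kraus matrices -/
noncomputable def kr24 {n a : ℕ} (c : Fin a → ℕ) (A : Fin a → Matrix (Fin n) (Fin n) ℤ)
    (X : Matrix (Fin n) (Fin n) ℂ) : Matrix (Fin n) (Fin n) ℂ :=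
  ∑ i, (c i : ℂ) • ((A i).map (Int.cast : ℤ → ℂ) * X * ((A i).map (Int.cast : ℤ → ℂ))ᴴ)

theorem kr24_apply {n a : ℕ} (c : Fin a → ℕ) (A : Fin a → Matrix (Fin n) (Fin n) ℤ)
    (X : Matrix (Fin n) (Fin n) ℂ) (x y : Fin n) :
    kr24 c A X x y = ∑ s, ∑ t, X s t * ((∑ i, (c i : ℤ) * A i x s * A i y t : ℤ) : ℂ) := by
  simp only [kr24, Matrix.sum_apply, Matrix.smul_apply, Matrix.mul_apply, Matrix.map_apply,
    Matrix.conjTranspose_apply, smul_eq_mul, star_intCast, Finset.mul_sum, Finset.sum_mul]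
  push_cast
  simp only [Finset.mul_sum]
  rw [Finset.sum_comm]
  conv_rhs => rw [Finset.sum_comm]
  refine Finset.sum_congr rfl fun t _ => ?_
  rw [Finset.sum_comm]
  refine Finset.sum_congr rfl fun s _ => Finset.sum_congr rfl fun i _ => ?_
  ring

theorem kr24_linear {n a : ℕ} (c : Fin a → ℕ) (A : Fin a → Matrix (Fin n) (Fin n) ℤ) :
    IsLinearMap ℂ (kr24 c A) := by
  constructor
  · intro X Y
    ext x y
    simp only [kr24_apply, Matrix.add_apply, add_mul, Finset.sum_add_distrib]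
  · intro z X
    ext x y
    simp only [kr24_apply, Matrix.smul_apply, smul_eq_mul, Finset.mul_sum, mul_assoc]

theorem cert24_cp_sum {n : ℕ} {ι : Type} (S : Finset ι)
    (Φ : ι → Matrix (Fin n) (Fin n) ℂ → Matrix (Fin n) (Fin n) ℂ)
    (h : ∀ i, IsCompletelyPositive (Φ i)) :
    IsCompletelyPositive (fun X => ∑ i ∈ S, Φ i X) := by
  classical
  induction S using Finset.induction_on with
  | empty =>
    intro k M _
    have : blockwise (k := Fin k) (fun X : Matrix (Fin n) (Fin n) ℂ =>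
        ∑ i ∈ (∅ : Finset ι), Φ i X) M = 0 := by
      ext p q; simp [blockwise]
    rw [this]
    exact Matrix.PosSemidef.zero
  | insert i S hi ih =>
    simp only [Finset.sum_insert hi]
    exact Chan_cp_add (h i) ih

theorem kr24_cp {n a : ℕ} (c : Fin a → ℕ) (A : Fin a → Matrix (Fin n) (Fin n) ℤ) :
    IsCompletelyPositive (kr24 c A) :=
  cert24_cp_sum Finset.univ _ (fun i => Chan_cp_smul (Chan_cp_conj _) (Nat.cast_nonneg (c i)))

theorem kr24_ppt {n a : ℕ} (c : Fin a → ℕ) (A : Fin a → Matrix (Fin n) (Fin n) ℤ)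
    (hA : ∀ x y s t, ∑ i, (c i : ℤ) * A i x s * A i y t = ∑ i, (c i : ℤ) * A i y s * A i x t) :
    IsPPT (kr24 c A) := by
  refine ⟨kr24_cp c A, ?_⟩
  have : (fun M => (kr24 c A M).transpose) = kr24 c A := by
    funext X
    ext x y
    rw [Matrix.transpose_apply, kr24_apply, kr24_apply]
    simp only [hA x y]
  rw [this]
  exact kr24_cp c A

theorem kr24_choi {n a b : ℕ} (c : Fin a → ℕ) (A : Fin a → Matrix (Fin n) (Fin n) ℤ)
    (d : Fin b → ℕ) (B : Fin b → Matrix (Fin n) (Fin n) ℤ) (s x t y : Fin n) :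
    choiMatrix (kr24 d B ∘ kr24 c A) (s, x) (t, y) =
      ∑ j, ∑ i, (d j : ℂ) * (c i : ℂ) * (((B j * A i) x s : ℤ) : ℂ) * (((B j * A i) y t : ℤ) : ℂ) := by
  have h1 : ∀ p q, kr24 c A (Matrix.single s t 1) p q =
      ((∑ i, (c i : ℤ) * A i p s * A i q t : ℤ) : ℂ) := by
    intro p q
    rw [kr24_apply, Finset.sum_eq_single s, Finset.sum_eq_single t]
    · simp
    · intro t' _ ht; simp [Matrix.single_apply, ht.symm]
    · simp
    · intro s' _ hs
      exact Finset.sum_eq_zero fun t' _ => by simp [Matrix.single_apply, hs.symm]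
    · simp
  show kr24 d B (kr24 c A (Matrix.single s t 1)) x y = _
  rw [kr24_apply]
  simp only [h1, Matrix.mul_apply]
  push_cast
  simp only [Finset.mul_sum, Finset.sum_mul]
  symm
  calc _ = ∑ j, ∑ i, ∑ q, ∑ p, (c i : ℂ) * (A i p s : ℂ) * (A i q t : ℂ) *
        ((d j : ℂ) * (B j x p : ℂ) * (B j y q : ℂ)) := by
        refine Finset.sum_congr rfl fun j _ => Finset.sum_congr rfl fun i _ =>
          Finset.sum_congr rfl fun q _ => Finset.sum_congr rfl fun p _ => by ring
    _ = ∑ j, ∑ i, ∑ p, ∑ q, (c i : ℂ) * (A i p s : ℂ) * (A i q t : ℂ) *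
        ((d j : ℂ) * (B j x p : ℂ) * (B j y q : ℂ)) :=
        Finset.sum_congr rfl fun j _ => Finset.sum_congr rfl fun i _ => Finset.sum_comm
    _ = ∑ j, ∑ p, ∑ q, ∑ i, (c i : ℂ) * (A i p s : ℂ) * (A i q t : ℂ) *
        ((d j : ℂ) * (B j x p : ℂ) * (B j y q : ℂ)) := by
        refine Finset.sum_congr rfl fun j _ => ?_
        rw [Finset.sum_comm]
        exact Finset.sum_congr rfl fun p _ => Finset.sum_comm
    _ = ∑ p, ∑ q, ∑ j, ∑ i, (c i : ℂ) * (A i p s : ℂ) * (A i q t : ℂ) *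
        ((d j : ℂ) * (B j x p : ℂ) * (B j y q : ℂ)) := by
        rw [Finset.sum_comm]
        exact Finset.sum_congr rfl fun p _ => Finset.sum_comm
    _ = _ := rfl

theorem cert24_sum {n a b : ℕ} (e : Fin b → Fin a → ℂ) (P : Fin b → Fin a → Fin n → Fin n → ℂ)
    (m : Fin n → Fin n → ℂ) (g : Fin b → Fin a → ℂ)
    (h : ∀ j i, ∑ s, ∑ x, m s x * P j i x s = 0) :
    ∑ s, ∑ x, m s x * ∑ j, ∑ i, e j i * P j i x s * g j i = 0 := by
  have : ∑ s, ∑ x, m s x * ∑ j, ∑ i, e j i * P j i x s * g j i =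
      ∑ j, ∑ i, e j i * g j i * ∑ s, ∑ x, m s x * P j i x s := by
    simp only [Finset.mul_sum]
    calc _ = ∑ s, ∑ j, ∑ i, ∑ x, m s x * (e j i * P j i x s * g j i) := by
          refine Finset.sum_congr rfl fun s _ => ?_
          rw [Finset.sum_comm]
          exact Finset.sum_congr rfl fun j _ => Finset.sum_comm
      _ = ∑ j, ∑ i, ∑ s, ∑ x, m s x * (e j i * P j i x s * g j i) := by
          rw [Finset.sum_comm]
          exact Finset.sum_congr rfl fun j _ => Finset.sum_comm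
      _ = _ := by
          refine Finset.sum_congr rfl fun j _ => Finset.sum_congr rfl fun i _ =>
            Finset.sum_congr rfl fun s _ => Finset.sum_congr rfl fun x _ => by ring
  rw [this]
  simp [h]

theorem cert {n a b r : ℕ} (c : Fin a → ℕ) (A : Fin a → Matrix (Fin n) (Fin n) ℤ)
    (d : Fin b → ℕ) (B : Fin b → Matrix (Fin n) (Fin n) ℤ)
    (M : Fin r → Matrix (Fin n) (Fin n) ℤ)
    (hA : ∀ x y s t, ∑ i, (c i : ℤ) * A i x s * A i y t = ∑ i, (c i : ℤ) * A i y s * A i x t)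
    (hB : ∀ x y s t, ∑ j, (d j : ℤ) * B j x s * B j y t = ∑ j, (d j : ℤ) * B j y s * B j x t)
    (hM : ∀ k j i, ∑ s, ∑ x, M k s x * (B j * A i) x s = 0)
    (hne : ∃ x s, ∑ j, ∑ i, (d j : ℤ) * (c i : ℤ) * (B j * A i) x s * (B j * A i) x s ≠ 0)
    (hK : ∀ u v : Fin n → ℂ, (∀ k, ∑ s, ∑ x, (M k s x : ℂ) * u s * v x = 0) → u = 0 ∨ v = 0) :
    ∃ Φ₁ Φ₂ : Matrix (Fin n) (Fin n) ℂ → Matrix (Fin n) (Fin n) ℂ,
      IsLinearMap ℂ Φ₁ ∧ IsLinearMap ℂ Φ₂ ∧ IsPPT Φ₁ ∧ IsPPT Φ₂ ∧
      choiMatrix (Φ₂ ∘ Φ₁) ≠ 0 ∧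
      (∀ u v : Fin n → ℂ, (∃ w, (choiMatrix (Φ₂ ∘ Φ₁)).mulVec w = fun p => u p.1 * v p.2) →
        u = 0 ∨ v = 0) ∧
      ¬ IsEntanglementBreaking (Φ₂ ∘ Φ₁) := by
  classical
  have hMc : ∀ k j i, ∑ s, ∑ x, (M k s x : ℂ) * (((B j * A i) x s : ℤ) : ℂ) = 0 := by
    intro k j i
    have := congrArg (Int.cast : ℤ → ℂ) (hM k j i)
    push_cast at this
    exact this
  have hC0 : choiMatrix (kr24 d B ∘ kr24 c A) ≠ 0 := by
    obtain ⟨x, s, h⟩ := hne
    intro h0
    have h1 := congrFun (congrFun h0 (s, x)) (s, x)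
    rw [kr24_choi] at h1
    apply h
    have h2 : ((∑ j, ∑ i, (d j : ℤ) * (c i : ℤ) * (B j * A i) x s * (B j * A i) x s : ℤ) : ℂ) = 0 := by
      push_cast
      exact h1
    exact_mod_cast h2
  -- left annihilation
  have hL : ∀ k (q : Fin n × Fin n),
      ∑ s, ∑ x, (M k s x : ℂ) * choiMatrix (kr24 d B ∘ kr24 c A) (s, x) q = 0 := by
    rintro k ⟨t, y⟩
    simp only [kr24_choi]
    exact cert24_sum (fun j i => (d j : ℂ) * (c i : ℂ)) (fun j i x s => (((B j * A i) x s : ℤ) : ℂ))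
      (fun s x => (M k s x : ℂ)) (fun j i => (((B j * A i) y t : ℤ) : ℂ)) (hMc k)
  refine ⟨kr24 c A, kr24 d B, kr24_linear c A, kr24_linear d B, kr24_ppt c A hA, kr24_ppt d B hB,
    hC0, ?_, ?_⟩
  · rintro u v ⟨w, hw⟩
    refine hK u v fun k => ?_
    have h1 : ∀ s x, u s * v x = ∑ q, choiMatrix (kr24 d B ∘ kr24 c A) (s, x) q * w q := by
      intro s x
      exact (congrFun hw (s, x)).symm
    calc ∑ s, ∑ x, (M k s x : ℂ) * u s * v x
        = ∑ s, ∑ x, ∑ q, (M k s x : ℂ) * choiMatrix (kr24 d B ∘ kr24 c A) (s, x) q * w q := by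
          refine Finset.sum_congr rfl fun s _ => Finset.sum_congr rfl fun x _ => ?_
          rw [mul_assoc, h1, Finset.mul_sum]
          exact Finset.sum_congr rfl fun q _ => by ring
      _ = ∑ q, (∑ s, ∑ x, (M k s x : ℂ) * choiMatrix (kr24 d B ∘ kr24 c A) (s, x) q) * w q := by
          simp only [Finset.sum_mul]
          calc _ = ∑ s, ∑ q, ∑ x, (M k s x : ℂ) *
                choiMatrix (kr24 d B ∘ kr24 c A) (s, x) q * w q :=
                Finset.sum_congr rfl fun s _ => Finset.sum_comm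
            _ = _ := Finset.sum_comm
      _ = 0 := by simp [hL]
  · intro hEB
    let ω : Fin n × Fin n → ℂ := fun p => if p.1 = p.2 then 1 else 0
    have hΩ : (Matrix.vecMulVec ω (star ω)).PosSemidef := Matrix.posSemidef_vecMulVec_self_star ω
    obtain ⟨ρ, P, Q, hP, hQ, hsum⟩ := hEB n _ hΩ
    have hblk : blockwise (k := Fin n) (kr24 d B ∘ kr24 c A) (Matrix.vecMulVec ω (star ω)) =
        choiMatrix (kr24 d B ∘ kr24 c A) := by
      ext p q
      have : block (Matrix.vecMulVec ω (star ω)) p.1 q.1 = Matrix.single p.1 q.1 1 := by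
        ext i j
        by_cases h1 : p.1 = i <;> by_cases h2 : q.1 = j <;>
          simp [block, Matrix.vecMulVec_apply, ω, Matrix.single_apply, h1, h2]
      simp only [blockwise, choiMatrix, Matrix.of_apply, this]
    rw [hblk] at hsum
    apply hC0
    rw [hsum]
    refine Finset.sum_eq_zero fun i _ => ?_
    have hz : ∀ k, (P i ⊗ₖ Q i) *ᵥ (fun p : Fin n × Fin n => (M k p.1 p.2 : ℂ)) = 0 := by
      intro k
      set m : Fin n × Fin n → ℂ := fun p => (M k p.1 p.2 : ℂ) with hm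
      have hpsd : ∀ l, (P l ⊗ₖ Q l).PosSemidef := fun l => (hP l).kronecker (hQ l)
      have htot : star m ⬝ᵥ (choiMatrix (kr24 d B ∘ kr24 c A) *ᵥ m) = 0 := by
        rw [Matrix.dotProduct_mulVec]
        have : star m ᵥ* choiMatrix (kr24 d B ∘ kr24 c A) = 0 := by
          funext q
          have := hL k q
          simp only [Matrix.vecMul, dotProduct, Fintype.sum_prod_type, hm, Pi.star_apply,
            star_intCast, Pi.zero_apply]
          exact this
        rw [this, zero_dotProduct]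
      rw [hsum, Matrix.sum_mulVec, dotProduct_sum] at htot
      have h0 := (Finset.sum_eq_zero_iff_of_nonneg
        (fun l _ => (hpsd l).dotProduct_mulVec_nonneg m)).1 htot i (Finset.mem_univ i)
      exact ((hpsd i).dotProduct_mulVec_zero_iff m).1 h0
    ext ⟨t, y⟩ ⟨s, x⟩
    have h1 := hK (fun s => P i t s) (fun x => Q i y x) (fun k => by
      have := congrFun (hz k) (t, y)
      simp only [Matrix.mulVec, dotProduct, Fintype.sum_prod_type, kroneckerMap_apply,
        Pi.zero_apply] at this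
      rw [← this]
      exact Finset.sum_congr rfl fun s _ => Finset.sum_congr rfl fun x _ => by ring)
    rcases h1 with h1 | h1
    · have := congrFun h1 s
      simp only [Pi.zero_apply] at this
      simp [kroneckerMap_apply, this]
    · have := congrFun h1 x
      simp only [Pi.zero_apply] at this
      simp [kroneckerMap_apply, this]

end Crest.Agent.R345
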