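import Mathlib

set_option autoImplicit false

namespace Crest.Agent.R345

open Finset

/-- A valuation subring of `ℂ` in which the prime `p` is not a unit. -/
theorem exists_valSubring (p : ℕ) (hp : p.Prime) :
    ∃ B : ValuationSubring ℂ, CharP (IsLocalRing.ResidueField B) p := by
  have hne : (Ideal.span {((p : ℕ) : (⊥ : Subring ℂ))}) ≠ ⊤ := by
    intro h
    rw [Ideal.span_singleton_eq_top] at h
    obtain ⟨y, hy⟩ := h.exists_right_inv
    obtain ⟨z, hz⟩ := Subring.mem_bot.mp y.2
    have h1 : ((p : ℂ)) * (z : ℂ) = 1 := by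
      have := congrArg (fun t : (⊥ : Subring ℂ) => (t : ℂ)) hy
      simpa [hz] using this
    have h2 : (p : ℤ) * z = 1 := by exact_mod_cast h1
    have h3 : (p : ℤ) ∣ 1 := ⟨z, h2.symm⟩
    have h4 : p ∣ 1 := by exact_mod_cast h3
    exact hp.one_lt.ne' (Nat.dvd_one.mp h4)
  obtain ⟨B, -, hB⟩ := Ideal.image_subset_nonunits_valuationSubring _ hne
  refine ⟨B, ?_⟩
  have hmem : ((p : ℕ) : ℂ) ∈ B.nonunits := by
    apply hB
    exact ⟨(p : (⊥ : Subring ℂ)), Ideal.mem_span_singleton_self _, by simp⟩
  have hlt : B.valuation ((p : B) : ℂ) < 1 := by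
    rw [ValuationSubring.mem_nonunits_iff] at hmem
    simpa using hmem
  have hmax : (p : B) ∈ IsLocalRing.maximalIdeal B := (B.valuation_lt_one_iff _).mpr hlt
  have h0 : ((p : ℕ) : IsLocalRing.ResidueField B) = 0 := by
    have := (IsLocalRing.residue_eq_zero_iff (p : B)).mpr hmax
    simpa using this
  exact (CharP.charP_iff_prime_eq_zero hp).mpr h0

/-- A nonzero vector is a scalar multiple of a `B`-integral vector with a coordinate `1`. -/
theorem exists_primitive {K ι : Type*} [Field K] [Fintype ι] (B : ValuationSubring K) (u : ι → K)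
    (hu : u ≠ 0) : ∃ (c : K) (u' : ι → B) (i : ι), c ≠ 0 ∧ u' i = 1 ∧ ∀ j, u j = c * (u' j : K) := by
  obtain ⟨i0, hi0⟩ := Function.ne_iff.mp hu
  obtain ⟨i, -, hi⟩ := Finset.exists_max_image Finset.univ (fun j => B.valuation (u j))
    ⟨i0, Finset.mem_univ _⟩
  have hui : u i ≠ 0 := by
    intro h
    have := hi i0 (Finset.mem_univ _)
    rw [h, map_zero, le_zero_iff, map_eq_zero] at this
    exact hi0 this
  have hv : B.valuation (u i) ≠ 0 := by simpa using hui
  have hmem : ∀ j, u j / u i ∈ B := by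
    intro j
    rw [← B.valuation_le_one_iff, map_div₀]
    exact div_le_one_of_le₀ (hi j (Finset.mem_univ _)) zero_le
  refine ⟨u i, fun j => ⟨u j / u i, hmem j⟩, i, hui, ?_, ?_⟩
  · apply Subtype.ext
    simp [hui]
  · intro j
    field_simp

/-- Reduction modulo `p` of a system of integer bilinear equations over `ℂ`. -/
theorem bilin_reduce (p : ℕ) (hp : p.Prime) {ι κ τ : Type*} [Fintype ι] [Fintype κ]
    (M : τ → ι → κ → ℤ)
    (hF : ∀ (F : Type) [Field F] [CharP F p] (u : ι → F) (v : κ → F),
      (∀ k, ∑ i, ∑ j, (M k i j : F) * u i * v j = 0) → u = 0 ∨ v = 0)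
    (u : ι → ℂ) (v : κ → ℂ) (h : ∀ k, ∑ i, ∑ j, (M k i j : ℂ) * u i * v j = 0) :
    u = 0 ∨ v = 0 := by
  by_contra hc
  push Not at hc
  obtain ⟨B, hB⟩ := exists_valSubring p hp
  obtain ⟨c, u', i0, hc0, hu1, hu⟩ := exists_primitive B u hc.1
  obtain ⟨d, v', j0, hd0, hv1, hv⟩ := exists_primitive B v hc.2
  have key : ∀ k, ∑ i, ∑ j, (M k i j : B) * u' i * v' j = 0 := by
    intro k
    have h1 := h k
    simp only [hu, hv] at h1
    have h2 : c * d * ∑ i, ∑ j, (M k i j : ℂ) * (u' i : ℂ) * (v' j : ℂ) = 0 := by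
      rw [← h1, Finset.mul_sum]
      refine Finset.sum_congr rfl fun i _ => ?_
      rw [Finset.mul_sum]
      refine Finset.sum_congr rfl fun j _ => ?_
      ring
    have h3 := (mul_eq_zero.mp h2).resolve_left (mul_ne_zero hc0 hd0)
    apply Subtype.ext
    have : ((∑ i, ∑ j, (M k i j : B) * u' i * v' j : B) : ℂ)
        = ∑ i, ∑ j, (M k i j : ℂ) * (u' i : ℂ) * (v' j : ℂ) := by
      change B.subtype _ = _
      simp only [map_sum, map_mul, map_intCast]
      rfl
    rw [this, h3]
    rfl
  have := hF (IsLocalRing.ResidueField B) (fun i => IsLocalRing.residue B (u' i))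
    (fun j => IsLocalRing.residue B (v' j)) (fun k => by
      have := congrArg (IsLocalRing.residue B) (key k)
      simpa only [map_sum, map_mul, map_intCast, map_zero] using this)
  rcases this with h0 | h0
  · have := congrFun h0 i0
    simp [hu1] at this
  · have := congrFun h0 j0
    simp [hv1] at this

/-- The form used for the 20-point split test. -/
theorem val_reduce (p : ℕ) (hp : p.Prime) {n K : ℕ} (M : Fin K → Fin n → Fin n → ℤ)
    (a : Fin K → Fin n → ℤ) (hM : ∀ k i j, (p : ℤ) ∣ M k i j - a k i * a k j)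
    (hsplit : ∀ (F : Type) [Field F] [CharP F p] (u v : Fin n → F),
      (∀ k, (∑ i, (a k i : F) * u i) * (∑ j, (a k j : F) * v j) = 0) → u = 0 ∨ v = 0)
    (u v : Fin n → ℂ) (h : ∀ k, ∑ i, ∑ j, (M k i j : ℂ) * u i * v j = 0) :
    u = 0 ∨ v = 0 := by
  refine bilin_reduce p hp M ?_ u v h
  intro F _ _ u v hF
  refine hsplit F u v fun k => ?_
  rw [← hF k, Finset.sum_mul_sum]
  refine Finset.sum_congr rfl fun i _ => Finset.sum_congr rfl fun j _ => ?_
  have h0 : ((M k i j - a k i * a k j : ℤ) : F) = 0 :=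
    (CharP.intCast_eq_zero_iff F p _).mpr (hM k i j)
  push_cast at h0
  have : (M k i j : F) = (a k i : F) * (a k j : F) := by linear_combination h0
  rw [this]; ring

/-- Version with spanning forms: a product `u ⊗ v` in the complex span of integer forms `T a`
reduces modulo `p` to a product in the span, or to a linear dependence among the `T a`. -/
theorem span_reduce (p : ℕ) (hp : p.Prime) {ι κ τ : Type*} [Fintype ι] [Fintype κ] [Fintype τ]
    (T : τ → ι → κ → ℤ)
    (hind : ∀ (F : Type) [Field F] [CharP F p] (c : τ → F),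
      (∀ i j, ∑ a, c a * (T a i j : F) = 0) → c = 0)
    (hF : ∀ (F : Type) [Field F] [CharP F p] (u : ι → F) (v : κ → F) (c : τ → F),
      (∀ i j, u i * v j = ∑ a, c a * (T a i j : F)) → u = 0 ∨ v = 0)
    (u : ι → ℂ) (v : κ → ℂ) (c : τ → ℂ) (h : ∀ i j, u i * v j = ∑ a, c a * (T a i j : ℂ)) :
    u = 0 ∨ v = 0 := by
  by_contra hc
  push Not at hc
  obtain ⟨B, hB⟩ := exists_valSubring p hp
  obtain ⟨x, u', i0, hx0, hu1, hu⟩ := exists_primitive B u hc.1
  obtain ⟨y, v', j0, hy0, hv1, hv⟩ := exists_primitive B v hc.2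
  have hcne : (fun o : Option τ => o.elim (x * y) c) ≠ 0 := by
    intro h0
    exact mul_ne_zero hx0 hy0 (congrFun h0 none)
  obtain ⟨z, c', o, hz0, hc1, hc'⟩ := exists_primitive B _ hcne
  have key : ∀ i j, c' none * u' i * v' j = ∑ a, c' (some a) * (T a i j : B) := by
    intro i j
    have h1 := h i j
    have e0 : x * y = z * (c' none : ℂ) := hc' none
    have e1 : ∀ a, c a = z * (c' (some a) : ℂ) := fun a => hc' (some a)
    simp only [hu, hv, e1] at h1
    have h2 : z * ((c' none : ℂ) * (u' i : ℂ) * (v' j : ℂ))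
        = z * ∑ a, (c' (some a) : ℂ) * (T a i j : ℂ) := by
      rw [Finset.mul_sum]
      have : ∑ a, z * ((c' (some a) : ℂ) * (T a i j : ℂ))
          = ∑ a, z * (c' (some a) : ℂ) * (T a i j : ℂ) :=
        Finset.sum_congr rfl fun a _ => by ring
      rw [this, ← h1]
      linear_combination (-(u' i : ℂ) * (v' j : ℂ)) * e0
    have h3 := mul_left_cancel₀ hz0 h2
    apply Subtype.ext
    have : ((∑ a, c' (some a) * (T a i j : B) : B) : ℂ)
        = ∑ a, (c' (some a) : ℂ) * (T a i j : ℂ) := by
      change B.subtype _ = _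
      simp only [map_sum, map_mul, map_intCast]
      rfl
    rw [this, ← h3]
    rfl
  have key' : ∀ i j, IsLocalRing.residue B (c' none) * IsLocalRing.residue B (u' i)
      * IsLocalRing.residue B (v' j)
      = ∑ a, IsLocalRing.residue B (c' (some a)) * (T a i j : IsLocalRing.ResidueField B) := by
    intro i j
    have := congrArg (IsLocalRing.residue B) (key i j)
    simpa only [map_sum, map_mul, map_intCast] using this
  by_cases h0 : IsLocalRing.residue B (c' none) = 0
  · have hz := hind _ (fun a => IsLocalRing.residue B (c' (some a))) (fun i j => by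
      rw [← key' i j, h0]; simp)
    cases o with
    | none => simp [hc1] at h0
    | some a =>
      have := congrFun hz a
      simp [hc1] at this
  · have := hF (IsLocalRing.ResidueField B)
      (fun i => IsLocalRing.residue B (c' none) * IsLocalRing.residue B (u' i))
      (fun j => IsLocalRing.residue B (v' j)) _ key'
    rcases this with h1 | h1
    · have := congrFun h1 i0
      simp [hu1, h0] at this
    · have := congrFun h1 j0
      simp [hv1] at this

end Crest.Agent.R345
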