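import Crest.Agent.R345.BkA
import Crest.Agent.R345.BkM
import Crest.Agent.R345.BkStt
import Crest.Agent.R345.BkStf
import Crest.Agent.R345.BkSft
import Crest.Agent.R345.BkSff
import Crest.Agent.R345.Cert
import Crest.Agent.R345.Val

set_option autoImplicit false
set_option maxRecDepth 100000

namespace Crest.Agent.R345.Bk

open Crest.Quantum

theorem chkW : chk 101207 W = true :=
  chk_of_five 101207 W fun a b c d e => by
    cases a <;> cases b
    exacts [sp_ff c d e, sp_ft c d e, sp_tf c d e, sp_tt c d e]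

theorem lenW : ∀ w ∈ W, w.length = 10 := by decide

theorem memW : ∀ w ∈ W, ∃ k : Fin 20, w = W.getD k [] := by decide +kernel

theorem hsplit (F : Type) [Field F] [CharP F 101207] (u v : Fin 10 → F)
    (H : ∀ k : Fin 20, (∑ i : Fin 10, ((Int.ofNat ((W.getD k []).getD i 0) : ℤ) : F) * u i) *
      (∑ j : Fin 10, ((Int.ofNat ((W.getD k []).getD j 0) : ℤ) : F) * v j) = 0) :
    u = 0 ∨ v = 0 := by
  refine cover 101207 (by norm_num) W lenW chkW u v fun w hw => ?_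
  obtain ⟨k, rfl⟩ := memW w hw
  simpa only [Int.ofNat_eq_natCast, Int.cast_natCast] using H k

theorem hne : ∑ j, ∑ i, (Fast.wt 15 cw j : ℤ) * (Fast.wt 15 cw i : ℤ) *
    (Fast.mat 15 24 KB j * Fast.mat 15 24 KA i) 0 1 *
    (Fast.mat 15 24 KB j * Fast.mat 15 24 KA i) 0 1 ≠ 0 := by
  decide +kernel

theorem main :
    ∃ Φ₁ Φ₂ : Matrix (Fin 10) (Fin 10) ℂ → Matrix (Fin 10) (Fin 10) ℂ,
      IsLinearMap ℂ Φ₁ ∧ IsLinearMap ℂ Φ₂ ∧ IsPPT Φ₁ ∧ IsPPT Φ₂ ∧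
      choiMatrix (Φ₂ ∘ Φ₁) ≠ 0 ∧
      (∀ u v : Fin 10 → ℂ, (∃ w, (choiMatrix (Φ₂ ∘ Φ₁)).mulVec w = fun p => u p.1 * v p.2) →
        u = 0 ∨ v = 0) ∧
      ¬ IsEntanglementBreaking (Φ₂ ∘ Φ₁) :=
  cert (Fast.wt 15 cw) (Fast.mat 15 24 KA) (Fast.wt 15 cw) (Fast.mat 15 24 KB)
    (Fast.mat 20 50 MM) (Fast.chkSym_sound _ _ _ _ symA) (Fast.chkSym_sound _ _ _ _ symB)
    (fun k j i => Fast.chkM_sound 15 15 20 24 24 50 KA KB MM k (kill k) j i)
    ⟨0, 1, hne⟩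
    (fun u v h => val_reduce 101207 (by norm_num) (fun k s x => Fast.mat 20 50 MM k s x)
      (fun k i => Int.ofNat ((W.getD k []).getD i 0))
      (fun k i j => Fast.chkP_sound 20 101207 _ _ modP k i j) hsplit u v h)

end Crest.Agent.R345.Bk
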