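import Mathlib
import Crest.Prelude.Def_QState
import Crest.Prelude.Def_QChannel
import Crest.Prelude.Def_Entanglement

/-! From a pair of PPT maps on `10 × 10` matrices whose composition is not entanglement breaking
to a PPT channel on `21 × 21` matrices whose square is not entanglement breaking. -/

set_option autoImplicit false
set_option linter.unusedSectionVars false

namespace Crest.Agent.R345

open Crest.Quantum Matrix
open scoped ComplexOrder Kronecker MatrixOrder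

section Gen

variable {d e g : Type} [Fintype d] [Fintype e] [Fintype g]
  [DecidableEq d] [DecidableEq e] [DecidableEq g]

theorem Chan_blockwise_comp {k : Type} (Φ : Matrix d d ℂ → Matrix e e ℂ)
    (Ψ : Matrix e e ℂ → Matrix g g ℂ) (M : Matrix (k × d) (k × d) ℂ) :
    blockwise (fun X => Ψ (Φ X)) M = blockwise Ψ (blockwise Φ M) := rfl

theorem Chan_cp_comp {Φ : Matrix d d ℂ → Matrix e e ℂ} {Ψ : Matrix e e ℂ → Matrix g g ℂ}
    (hΦ : IsCompletelyPositive Φ) (hΨ : IsCompletelyPositive Ψ) :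
    IsCompletelyPositive (fun X => Ψ (Φ X)) := fun k M hM => by
  rw [Chan_blockwise_comp]
  exact hΨ k _ (hΦ k M hM)

theorem Chan_cp_add {Φ Ψ : Matrix d d ℂ → Matrix e e ℂ}
    (hΦ : IsCompletelyPositive Φ) (hΨ : IsCompletelyPositive Ψ) :
    IsCompletelyPositive (fun X => Φ X + Ψ X) := fun k M hM => by
  have : blockwise (k := Fin k) (fun X => Φ X + Ψ X) M = blockwise Φ M + blockwise Ψ M := rfl
  rw [this]
  exact (hΦ k M hM).add (hΨ k M hM)

theorem Chan_cp_smul {Φ : Matrix d d ℂ → Matrix e e ℂ} (hΦ : IsCompletelyPositive Φ) {c : ℂ}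
    (hc : 0 ≤ c) : IsCompletelyPositive (fun X => c • Φ X) := fun k M hM => by
  have : blockwise (k := Fin k) (fun X => c • Φ X) M = c • blockwise Φ M := rfl
  rw [this]
  exact (hΦ k M hM).smul hc

theorem Chan_cp_conj (P : Matrix e d ℂ) :
    IsCompletelyPositive (fun X : Matrix d d ℂ => P * X * Pᴴ) :=
  fun k M hM => by
  have : blockwise (k := Fin k) (fun X : Matrix d d ℂ => P * X * Pᴴ) M =
      ((1 : Matrix (Fin k) (Fin k) ℂ) ⊗ₖ P) * M * ((1 : Matrix (Fin k) (Fin k) ℂ) ⊗ₖ P)ᴴ := by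
    ext ⟨s, i⟩ ⟨t, j⟩
    simp [blockwise, block, Matrix.mul_apply, Fintype.sum_prod_type, Matrix.one_apply,
      kroneckerMap_apply, apply_ite star]
  rw [this]
  exact hM.mul_mul_conjTranspose_same _

theorem Chan_cp_pos {Φ : Matrix d d ℂ → Matrix e e ℂ} (hΦ : IsCompletelyPositive Φ)
    {X : Matrix d d ℂ} (hX : X.PosSemidef) : (Φ X).PosSemidef := by
  have h := (hΦ 1 _ (hX.submatrix (Prod.snd : Fin 1 × d → d))).submatrix
    (fun i : e => ((0 : Fin 1), i))
  exact h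

theorem Chan_entry_le {X : Matrix d d ℂ} (hX : X.PosSemidef) (i j : d) :
    ‖X i j‖ ≤ X.trace.re := by
  obtain ⟨B, rfl⟩ := CStarAlgebra.nonneg_iff_eq_star_mul_self.mp hX.nonneg
  have htr : (star B * B).trace.re = ∑ a, ∑ r, ‖B r a‖ ^ 2 := by
    simp only [Matrix.trace, Matrix.diag, Matrix.mul_apply, star_apply, Complex.re_sum]
    refine Finset.sum_congr rfl fun a _ => Finset.sum_congr rfl fun r _ => ?_
    rw [Complex.star_def, Complex.conj_mul']
    norm_cast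
  have hle : ∀ a, ∑ r, ‖B r a‖ ^ 2 ≤ ∑ a, ∑ r, ‖B r a‖ ^ 2 := fun a =>
    Finset.single_le_sum (f := fun a => ∑ r, ‖B r a‖ ^ 2)
      (fun a _ => Finset.sum_nonneg fun r _ => by positivity) (Finset.mem_univ a)
  rw [htr, Matrix.mul_apply]
  refine (norm_sum_le _ _).trans ?_
  have h1 : ∑ r, ‖(star B) i r * B r j‖ ≤ ∑ r, (‖B r i‖ ^ 2 + ‖B r j‖ ^ 2) / 2 :=
    Finset.sum_le_sum fun r _ => by
      rw [norm_mul, star_apply, norm_star]
      nlinarith [sq_nonneg (‖B r i‖ - ‖B r j‖)]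
  refine h1.trans ?_
  rw [← Finset.sum_div, Finset.sum_add_distrib]
  linarith [hle i, hle j]

theorem Chan_exists_c {Ψ : Matrix d d ℂ → Matrix e e ℂ} (hl : IsLinearMap ℂ Ψ)
    (hΨ : IsCompletelyPositive Ψ) :
    ∃ c : ℝ, 0 < c ∧ ∀ (k : ℕ) (M : Matrix (Fin k × d) (Fin k × d) ℂ), M.PosSemidef →
      (Matrix.of fun s t : Fin k =>
        (block M s t).trace - (c : ℂ) * (Ψ (block M s t)).trace).PosSemidef := by
  let f : Matrix d d ℂ →ₗ[ℂ] ℂ := (Matrix.traceLinearMap e ℂ ℂ).comp (IsLinearMap.mk' Ψ hl)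
  have hf : ∀ X, f X = (Ψ X).trace := fun X => rfl
  set S : ℝ := ∑ i, ∑ j, ‖f (Matrix.single i j 1)‖ with hS
  have hS0 : 0 ≤ S := Finset.sum_nonneg fun i _ => Finset.sum_nonneg fun j _ => norm_nonneg _
  have hb : ∀ X : Matrix d d ℂ, X.PosSemidef → ‖f X‖ ≤ S * X.trace.re := by
    intro X hX
    have h1 : f X = ∑ i, ∑ j, X i j * f (Matrix.single i j 1) := by
      conv_lhs => rw [Matrix.matrix_eq_sum_single X]
      simp only [map_sum]
      refine Finset.sum_congr rfl fun i _ => Finset.sum_congr rfl fun j _ => ?_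
      rw [← smul_eq_mul, ← map_smul, Matrix.smul_single, smul_eq_mul, mul_one]
    rw [h1, hS, Finset.sum_mul]
    refine (norm_sum_le _ _).trans (Finset.sum_le_sum fun i _ => ?_)
    rw [Finset.sum_mul]
    refine (norm_sum_le _ _).trans (Finset.sum_le_sum fun j _ => ?_)
    rw [norm_mul, mul_comm]
    exact mul_le_mul_of_nonneg_left (Chan_entry_le hX i j) (norm_nonneg _)
  have hpos : ∀ X : Matrix d d ℂ, X.PosSemidef →
      0 ≤ X.trace - ((1 / (1 + S) : ℝ) : ℂ) * f X := by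
    intro X hX
    have h1 := hX.trace_nonneg
    have h2 : 0 ≤ f X := (Chan_cp_pos hΨ hX).trace_nonneg
    have h3 := hb X hX
    have h4 := Complex.re_le_norm (f X)
    rw [Complex.le_def] at h1 h2 ⊢
    simp only [Complex.zero_re, Complex.zero_im, Complex.sub_re, Complex.sub_im,
      Complex.re_ofReal_mul, Complex.im_ofReal_mul] at h1 h2 ⊢
    refine ⟨?_, by rw [← h1.2, ← h2.2]; simp⟩
    have h5 : (f X).re ≤ (1 + S) * X.trace.re := by nlinarith [h1.1]
    have h6 : 1 / (1 + S) * (f X).re ≤ X.trace.re := by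
      rw [one_div, inv_mul_le_iff₀ (by linarith)]
      exact h5
    linarith
  refine ⟨1 / (1 + S), by positivity, fun k M hM => ?_⟩
  refine Matrix.PosSemidef.of_dotProduct_mulVec_nonneg ?_ fun x => ?_
  · have hN := (hΨ k M hM).1
    ext s t
    simp only [conjTranspose_apply, Matrix.of_apply, star_sub, star_mul', Matrix.trace,
      Matrix.diag, star_sum]
    congr 1
    · exact Finset.sum_congr rfl fun i _ => hM.1.apply (s, i) (t, i)
    · congr 1
      · exact Complex.conj_ofReal _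
      · exact Finset.sum_congr rfl fun i _ => hN.apply (s, i) (t, i)
  · let V : Matrix (Fin k × d) d ℂ := Matrix.of fun p j => if p.2 = j then x p.1 else 0
    have hX : Vᴴ * M * V = ∑ s, ∑ t, (star (x s) * x t) • block M s t := by
      ext i j
      simp only [V, Matrix.mul_apply, conjTranspose_apply, Matrix.of_apply, Fintype.sum_prod_type,
        apply_ite star, star_zero, ite_mul, zero_mul, mul_ite, mul_zero, Finset.sum_ite_eq',
        Finset.mem_univ, if_true, Matrix.sum_apply, Matrix.smul_apply, block, smul_eq_mul,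
        Finset.sum_mul]
      rw [Finset.sum_comm]
      refine Finset.sum_congr rfl fun s _ => Finset.sum_congr rfl fun t _ => ?_
      ring
    have h1 := hpos _ (hM.conjTranspose_mul_mul_same V)
    rw [hX] at h1
    simp only [map_sum, map_smul, Matrix.trace_sum, Matrix.trace_smul, smul_eq_mul] at h1
    simp only [hf, Finset.mul_sum, ← Finset.sum_sub_distrib] at h1
    convert h1 using 1
    simp only [dotProduct, mulVec, Matrix.of_apply, Finset.mul_sum, Pi.star_apply]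
    refine Finset.sum_congr rfl fun s _ => Finset.sum_congr rfl fun t _ => ?_
    ring

theorem Chan_cp_fun {ℓ : Matrix d d ℂ → ℂ}
    (h : ∀ (k : ℕ) (M : Matrix (Fin k × d) (Fin k × d) ℂ), M.PosSemidef →
      (Matrix.of fun s t : Fin k => ℓ (block M s t)).PosSemidef)
    {E : Matrix e e ℂ} (hE : E.PosSemidef) : IsCompletelyPositive (fun X => ℓ X • E) :=
  fun k M hM => by
  have : blockwise (k := Fin k) (fun X => ℓ X • E) M =
      (Matrix.of fun s t : Fin k => ℓ (block M s t)) ⊗ₖ E := rfl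
  rw [this]
  exact (h k M hM).kronecker hE

theorem Chan_sep {k : Type} [Fintype k] [DecidableEq k] {Ψ : Matrix d d ℂ → Matrix e e ℂ}
    (hl : IsLinearMap ℂ Ψ) (hΨ : IsCompletelyPositive Ψ) {N : Matrix (k × d) (k × d) ℂ}
    (hN : IsSeparable N) : IsSeparable (blockwise Ψ N) := by
  obtain ⟨r, A, B, hA, hB, rfl⟩ := hN
  refine ⟨r, A, fun i => Ψ (B i), hA, fun i => Chan_cp_pos hΨ (hB i), ?_⟩
  ext ⟨s, a⟩ ⟨t, b⟩
  have h1 : block (∑ i, A i ⊗ₖ B i) s t = ∑ i, A i s t • B i := by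
    ext a b
    simp [block, Matrix.sum_apply, kroneckerMap_apply]
  have h2 : Ψ (∑ i, A i s t • B i) = ∑ i, A i s t • Ψ (B i) := by
    have := map_sum (IsLinearMap.mk' Ψ hl) (fun i => A i s t • B i) Finset.univ
    simpa only [map_smul, IsLinearMap.mk'_apply] using this
  simp only [blockwise, Matrix.of_apply, h1, h2, Matrix.sum_apply, Matrix.smul_apply,
    kroneckerMap_apply, smul_eq_mul]

/-- abstract form: two real isometries with orthogonal ranges and a dump state -/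
theorem Chan_abstract (P Q : Matrix e d ℂ) (E : Matrix e e ℂ)
    (hP : Pᴴ = Pᵀ) (hQ : Qᴴ = Qᵀ) (hPP : Pᴴ * P = 1) (hQQ : Qᴴ * Q = 1) (hPQ : Pᴴ * Q = 0)
    (hQP : Qᴴ * P = 0) (hPE : Pᴴ * E = 0) (hQE : Qᴴ * E = 0) (hE : E.PosSemidef) (hEt : Eᵀ = E)
    (hE1 : E.trace = 1)
    (Φ₁ Φ₂ : Matrix d d ℂ → Matrix d d ℂ) (l₁ : IsLinearMap ℂ Φ₁) (l₂ : IsLinearMap ℂ Φ₂)
    (p₁ : IsPPT Φ₁) (p₂ : IsPPT Φ₂) (hn : ¬ IsEntanglementBreaking (Φ₂ ∘ Φ₁)) :
    ∃ Θ : Matrix e e ℂ → Matrix e e ℂ,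
      IsChannel Θ ∧ IsPPT Θ ∧ ¬ IsEntanglementBreaking (Θ ∘ Θ) := by
  let Ψ : Matrix e e ℂ → Matrix e e ℂ := fun M =>
    Q * Φ₁ (Pᴴ * M * P) * Qᴴ + P * Φ₂ (Qᴴ * M * Q) * Pᴴ
  have cP : IsCompletelyPositive (fun M : Matrix e e ℂ => Pᴴ * M * P) := by
    simpa only [conjTranspose_conjTranspose] using Chan_cp_conj Pᴴ
  have cQ : IsCompletelyPositive (fun M : Matrix e e ℂ => Qᴴ * M * Q) := by
    simpa only [conjTranspose_conjTranspose] using Chan_cp_conj Qᴴ
  have lΨ : IsLinearMap ℂ Ψ := by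
    constructor
    · intro X Y
      simp only [Ψ, Matrix.mul_add, Matrix.add_mul, l₁.map_add, l₂.map_add]
      abel
    · intro c X
      simp only [Ψ, Matrix.mul_smul, Matrix.smul_mul, l₁.map_smul, l₂.map_smul, smul_add]
  have cΨ : IsCompletelyPositive Ψ :=
    Chan_cp_add (Chan_cp_comp (Chan_cp_comp cP p₁.1) (Chan_cp_conj Q))
      (Chan_cp_comp (Chan_cp_comp cQ p₂.1) (Chan_cp_conj P))
  have hP' : Pᴴᵀ = P := by rw [hP, transpose_transpose]
  have hQ' : Qᴴᵀ = Q := by rw [hQ, transpose_transpose]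
  have cΨt : IsCompletelyPositive (fun M => (Ψ M)ᵀ) := by
    have := Chan_cp_add (Chan_cp_comp (Chan_cp_comp cP p₁.2) (Chan_cp_conj Q))
      (Chan_cp_comp (Chan_cp_comp cQ p₂.2) (Chan_cp_conj P))
    convert this using 2 with M
    simp only [Ψ, transpose_add, transpose_mul, hP', hQ', ← hP, ← hQ, Matrix.mul_assoc]
  obtain ⟨c, hc, hL⟩ := Chan_exists_c lΨ cΨ
  have hc' : (0 : ℂ) ≤ (c : ℂ) := by exact_mod_cast hc.le
  have hc0 : (c : ℂ) ≠ 0 := by exact_mod_cast hc.ne'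
  let Θ : Matrix e e ℂ → Matrix e e ℂ := fun M =>
    (c : ℂ) • Ψ M + (M.trace - (c : ℂ) * (Ψ M).trace) • E
  have cE : IsCompletelyPositive
      (fun M : Matrix e e ℂ => (M.trace - (c : ℂ) * (Ψ M).trace) • E) :=
    Chan_cp_fun (ℓ := fun M => M.trace - (c : ℂ) * (Ψ M).trace) hL hE
  have cΘ : IsCompletelyPositive Θ := Chan_cp_add (Chan_cp_smul cΨ hc') cE
  refine ⟨Θ, ⟨?_, cΘ, ?_⟩, ⟨cΘ, ?_⟩, fun hEB => hn fun k M hM => ?_⟩
  · constructor
    · intro X Y
      simp only [Θ, lΨ.map_add, Matrix.trace_add, smul_add, mul_add]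
      module
    · intro a X
      simp only [Θ, lΨ.map_smul, Matrix.trace_smul, smul_eq_mul]
      module
  · intro M
    simp only [Θ, Matrix.trace_add, Matrix.trace_smul, hE1, smul_eq_mul]
    ring
  · have := Chan_cp_add (Chan_cp_smul cΨt hc') cE
    convert this using 2 with M
    simp only [Θ, transpose_add, transpose_smul, hEt]
  · have h1 := hEB k _ (Chan_cp_conj P k M hM)
    have lR : IsLinearMap ℂ (fun Y : Matrix e e ℂ => ((c : ℂ)⁻¹ * (c : ℂ)⁻¹) • (Pᴴ * Y * P)) := by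
      constructor
      · intro X Y
        simp only [Matrix.mul_add, Matrix.add_mul, smul_add]
      · intro a X
        simp only [Matrix.mul_smul, Matrix.smul_mul, smul_comm a]
    have hci : (0 : ℂ) ≤ (c : ℂ)⁻¹ * (c : ℂ)⁻¹ := by
      have : (0 : ℝ) ≤ c⁻¹ * c⁻¹ := by positivity
      exact_mod_cast this
    have h2 := Chan_sep lR (Chan_cp_smul cP hci) h1
    have e1 : ∀ N : Matrix e e ℂ, Pᴴ * Θ N * P = (c : ℂ) • Φ₂ (Qᴴ * N * Q) := by
      intro N
      simp only [Θ, Ψ, Matrix.mul_add, Matrix.add_mul, Matrix.mul_smul, Matrix.smul_mul, hPE,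
        ← Matrix.mul_assoc, hPQ, hPP, Matrix.zero_mul, Matrix.one_mul, smul_zero, add_zero,
        zero_add]
      rw [Matrix.mul_assoc, hPP, Matrix.mul_one]
    have e2 : ∀ N : Matrix e e ℂ, Qᴴ * Θ N * Q = (c : ℂ) • Φ₁ (Pᴴ * N * P) := by
      intro N
      simp only [Θ, Ψ, Matrix.mul_add, Matrix.add_mul, Matrix.mul_smul, Matrix.smul_mul, hQE,
        ← Matrix.mul_assoc, hQP, hQQ, Matrix.zero_mul, Matrix.one_mul, smul_zero, add_zero,
        zero_add]
      rw [Matrix.mul_assoc, hQQ, Matrix.mul_one]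
    have e3 : ∀ X : Matrix d d ℂ,
        ((c : ℂ)⁻¹ * (c : ℂ)⁻¹) • (Pᴴ * (Θ ∘ Θ) (P * X * Pᴴ) * P) = (Φ₂ ∘ Φ₁) X := by
      intro X
      have h3 : Pᴴ * (P * X * Pᴴ) * P = X := by
        rw [← Matrix.mul_assoc, ← Matrix.mul_assoc, hPP, Matrix.one_mul, Matrix.mul_assoc, hPP,
          Matrix.mul_one]
      simp only [Function.comp_apply]
      rw [e1, e2, h3, l₂.map_smul, smul_smul, smul_smul]
      have : (c : ℂ)⁻¹ * (c : ℂ)⁻¹ * c * c = 1 := by field_simp
      rw [this, one_smul]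
    rw [← Chan_blockwise_comp, ← Chan_blockwise_comp] at h2
    simp only [e3] at h2
    exact h2

end Gen

theorem chan_of_pair (Φ₁ Φ₂ : Matrix (Fin 10) (Fin 10) ℂ → Matrix (Fin 10) (Fin 10) ℂ)
    (l₁ : IsLinearMap ℂ Φ₁) (l₂ : IsLinearMap ℂ Φ₂) (p₁ : IsPPT Φ₁) (p₂ : IsPPT Φ₂)
    (hn : ¬ IsEntanglementBreaking (Φ₂ ∘ Φ₁)) :
    ∃ Θ : Matrix (Fin 21) (Fin 21) ℂ → Matrix (Fin 21) (Fin 21) ℂ,
      IsChannel Θ ∧ IsPPT Θ ∧ ¬ IsEntanglementBreaking (Θ ∘ Θ) := by
  let emb : (Fin 10 → Fin 21) → Matrix (Fin 21) (Fin 10) ℂ := fun ι =>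
    Matrix.of fun i j => if i = ι j then 1 else 0
  have ht : ∀ ι, (emb ι)ᴴ = (emb ι)ᵀ := by
    intro ι
    ext i j
    simp [emb, apply_ite star]
  have hm : ∀ ι κ, (emb ι)ᴴ * emb κ = Matrix.of fun a b => if ι a = κ b then 1 else 0 := by
    intro ι κ
    ext a b
    simp [emb, Matrix.mul_apply, apply_ite star, eq_comm]
  have hE : ∀ ι : Fin 10 → Fin 21, (∀ j, (20 : Fin 21) ≠ ι j) →
      (emb ι)ᴴ * (Matrix.single (20 : Fin 21) (20 : Fin 21) (1 : ℂ)) = 0 := by
    intro ι h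
    ext a b
    simp only [emb, Matrix.mul_apply, conjTranspose_apply, Matrix.of_apply, apply_ite star,
      star_one, star_zero, ite_mul, one_mul, zero_mul, Finset.sum_ite_eq', Finset.mem_univ, if_true,
      Matrix.zero_apply]
    exact Matrix.single_apply_of_row_ne (h a) _ _ _
  let ι₁ : Fin 10 → Fin 21 := fun j => ⟨j.1, by omega⟩
  let ι₂ : Fin 10 → Fin 21 := fun j => ⟨j.1 + 10, by omega⟩
  refine Chan_abstract (emb ι₁) (emb ι₂) (Matrix.single (20 : Fin 21) (20 : Fin 21) (1 : ℂ))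
    (ht _) (ht _) ?_ ?_ ?_ ?_ (hE _ (by decide)) (hE _ (by decide)) ?_ ?_ ?_ Φ₁ Φ₂ l₁ l₂ p₁ p₂ hn
  · rw [hm]
    ext a b
    have : ι₁ a = ι₁ b ↔ a = b := by simp [ι₁, Fin.ext_iff]
    simp [Matrix.one_apply, this]
  · rw [hm]
    ext a b
    have : ι₂ a = ι₂ b ↔ a = b := by simp [ι₂, Fin.ext_iff]
    simp [Matrix.one_apply, this]
  · rw [hm]
    ext a b
    have : ι₁ a ≠ ι₂ b := by
      simp only [ι₁, ι₂, ne_eq, Fin.ext_iff]
      omega
    simp [this]
  · rw [hm]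
    ext a b
    have : ι₂ a ≠ ι₁ b := by
      simp only [ι₁, ι₂, ne_eq, Fin.ext_iff]
      omega
    simp [this]
  · rw [← Matrix.diagonal_single]
    refine Matrix.PosSemidef.diagonal fun i => ?_
    rw [Pi.single_apply]
    split_ifs <;> simp
  · simp
  · simp

end Crest.Agent.R345
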