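import Mathlib

/-! Fast kernel checkers for the integer identities of row 345 (packed matrices). -/

set_option autoImplicit false

namespace Crest.Agent.R345.Fast

noncomputable def sumN (n : ℕ) (f : ℕ → ℤ) : ℤ := Nat.rec 0 (fun k acc => Int.add acc (f k)) n

noncomputable def allN (n : ℕ) (f : ℕ → Bool) : Bool :=
  Nat.rec true (fun k acc => and (f k) acc) n

/-- guarded product -/
def gm (a b : ℤ) : ℤ := cond (Nat.beq a.natAbs 0) 0 (Int.mul a b)

def isZ (a : ℤ) : Bool := Nat.beq a.natAbs 0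

/-- entry `i` of the number `N` read in base `2^b`, shifted by `2^(b-1)` -/
def ent (b N i : ℕ) : ℤ :=
  Int.subNatNat (Nat.mod (Nat.shiftRight N (Nat.mul b i)) (Nat.pow 2 b)) (Nat.pow 2 (Nat.pred b))

def get (b : ℕ) (L : List ℕ) (k x s : ℕ) : ℤ := ent b (L.getD k 0) (Nat.add (Nat.mul 10 x) s)

/-- the packed family of `10 × 10` integer matrices -/
def mat (n b : ℕ) (L : List ℕ) (k : Fin n) : Matrix (Fin 10) (Fin 10) ℤ :=
  Matrix.of fun x s => get b L k x s

def wt (n : ℕ) (c : List ℕ) (k : Fin n) : ℕ := c.getD k 0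

theorem sumN_eq (n : ℕ) (f : ℕ → ℤ) : sumN n f = ∑ i : Fin n, f i := by
  rw [Fin.sum_univ_eq_sum_range]
  induction n with
  | zero => rfl
  | succ n ih => rw [Finset.sum_range_succ, ← ih]; rfl

theorem allN_spec (n : ℕ) (f : ℕ → Bool) (h : allN n f = true) (i : Fin n) : f i = true := by
  obtain ⟨i, hi⟩ := i
  induction n with
  | zero => omega
  | succ n ih =>
    have h' : (f n && allN n f) = true := h
    rw [Bool.and_eq_true] at h'
    by_cases e : i = n
    · subst e; exact h'.1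
    · exact ih h'.2 (by omega)

theorem isZ_spec {a : ℤ} (h : isZ a = true) : a = 0 :=
  Int.natAbs_eq_zero.mp (Nat.eq_of_beq_eq_true h)

theorem gm_eq (a b : ℤ) : gm a b = a * b := by
  unfold gm
  cases h : Nat.beq a.natAbs 0
  · rfl
  · rw [isZ_spec h]; simp

noncomputable def chkSym (n b : ℕ) (c L : List ℕ) : Bool :=
  allN 10 fun x => allN 10 fun y => allN 10 fun s => allN 10 fun t =>
    isZ (sumN n fun i => Int.mul (Int.ofNat (c.getD i 0))
      (Int.sub (gm (get b L i x s) (get b L i y t)) (gm (get b L i y s) (get b L i x t))))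

theorem chkSym_sound (n b : ℕ) (c L : List ℕ) (h : chkSym n b c L = true) (x y s t : Fin 10) :
    ∑ i, (wt n c i : ℤ) * mat n b L i x s * mat n b L i y t
      = ∑ i, (wt n c i : ℤ) * mat n b L i y s * mat n b L i x t := by
  have h1 := isZ_spec (allN_spec _ _ (allN_spec _ _ (allN_spec _ _ (allN_spec _ _ h x) y) s) t)
  rw [sumN_eq] at h1
  rw [← sub_eq_zero, ← Finset.sum_sub_distrib, ← h1]
  refine Finset.sum_congr rfl fun i _ => ?_
  rw [gm_eq, gm_eq]
  show _ = (wt n c i : ℤ) * (mat n b L i x s * mat n b L i y t - mat n b L i y s * mat n b L i x t)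
  ring

noncomputable def gg (bA bM : ℕ) (A M : List ℕ) (k i p x : ℕ) : ℤ :=
  sumN 10 fun s => gm (get bA A i p s) (get bM M k s x)

/-- the functional number `k` kills all products -/
noncomputable def chkM (a b bA bB bM : ℕ) (A B M : List ℕ) (k : ℕ) : Bool :=
  allN a fun i => allN b fun j =>
    isZ (sumN 10 fun x => sumN 10 fun p => gm (get bB B j x p) (gg bA bM A M k i p x))

theorem chkM_sound (a b r bA bB bM : ℕ) (A B M : List ℕ) (k : Fin r)
    (h : chkM a b bA bB bM A B M k = true) (j : Fin b) (i : Fin a) :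
    ∑ s, ∑ x, mat r bM M k s x * (mat b bB B j * mat a bA A i) x s = 0 := by
  have h1 := isZ_spec (allN_spec _ _ (allN_spec _ _ h i) j)
  rw [sumN_eq] at h1
  rw [← h1, Finset.sum_comm]
  refine Finset.sum_congr rfl fun x _ => ?_
  rw [sumN_eq]
  simp only [Matrix.mul_apply, Finset.mul_sum]
  rw [Finset.sum_comm]
  refine Finset.sum_congr rfl fun p _ => ?_
  rw [gm_eq, gg, sumN_eq, Finset.mul_sum]
  refine Finset.sum_congr rfl fun s _ => ?_
  rw [gm_eq]
  show _ = mat b bB B j x p * (mat a bA A i p s * mat r bM M k s x)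
  ring

theorem chkM_all (a b r bA bB bM : ℕ) (A B M : List ℕ)
    (h : allN r (chkM a b bA bB bM A B M) = true) (k : Fin r) (j : Fin b) (i : Fin a) :
    ∑ s, ∑ x, mat r bM M k s x * (mat b bB B j * mat a bA A i) x s = 0 :=
  chkM_sound a b r bA bB bM A B M k (allN_spec _ _ h k) j i

/-! Versions for arbitrary data functions. -/

/-- list data -/
def getL (L : List (List (List ℤ))) (k x s : ℕ) : ℤ := ((L.getD k []).getD x []).getD s 0

noncomputable def chkSymF (n : ℕ) (c : ℕ → ℕ) (A : ℕ → ℕ → ℕ → ℤ) : Bool :=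
  allN 10 fun x => allN 10 fun y => allN 10 fun s => allN 10 fun t =>
    isZ (sumN n fun i => Int.mul (Int.ofNat (c i))
      (Int.sub (gm (A i x s) (A i y t)) (gm (A i y s) (A i x t))))

theorem chkSymF_sound (n : ℕ) (c : ℕ → ℕ) (A : ℕ → ℕ → ℕ → ℤ) (h : chkSymF n c A = true)
    (x y s t : Fin 10) :
    ∑ i : Fin n, (c i : ℤ) * A i x s * A i y t = ∑ i : Fin n, (c i : ℤ) * A i y s * A i x t := by
  have h1 := isZ_spec (allN_spec _ _ (allN_spec _ _ (allN_spec _ _ (allN_spec _ _ h x) y) s) t)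
  rw [sumN_eq] at h1
  rw [← sub_eq_zero, ← Finset.sum_sub_distrib, ← h1]
  refine Finset.sum_congr rfl fun i _ => ?_
  rw [gm_eq, gm_eq]
  show _ = (c i : ℤ) * (A i x s * A i y t - A i y s * A i x t)
  ring

noncomputable def ggF (A M : ℕ → ℕ → ℕ → ℤ) (k i p x : ℕ) : ℤ :=
  sumN 10 fun s => gm (A i p s) (M k s x)

noncomputable def chkMF (a b : ℕ) (A B M : ℕ → ℕ → ℕ → ℤ) (k : ℕ) : Bool :=
  allN a fun i => allN b fun j =>
    isZ (sumN 10 fun x => sumN 10 fun p => gm (B j x p) (ggF A M k i p x))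

theorem chkMF_sound (a b : ℕ) (A B M : ℕ → ℕ → ℕ → ℤ) (k : ℕ)
    (h : chkMF a b A B M k = true) (j : Fin b) (i : Fin a) :
    ∑ s : Fin 10, ∑ x : Fin 10, M k s x * ∑ p : Fin 10, B j x p * A i p s = 0 := by
  have h1 := isZ_spec (allN_spec _ _ (allN_spec _ _ h i) j)
  rw [sumN_eq] at h1
  rw [← h1, Finset.sum_comm]
  refine Finset.sum_congr rfl fun x _ => ?_
  rw [sumN_eq]
  simp only [Finset.mul_sum]
  rw [Finset.sum_comm]
  refine Finset.sum_congr rfl fun p _ => ?_
  rw [gm_eq, ggF, sumN_eq, Finset.mul_sum]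
  refine Finset.sum_congr rfl fun s _ => ?_
  rw [gm_eq]
  ring

/-- `M k = a k ⊗ a k` modulo `p` -/
noncomputable def chkP (r p : ℕ) (M : ℕ → ℕ → ℕ → ℤ) (a : ℕ → ℕ → ℤ) : Bool :=
  allN r fun k => allN 10 fun i => allN 10 fun j =>
    Nat.beq (Nat.mod (Int.sub (M k i j) (Int.mul (a k i) (a k j))).natAbs p) 0

theorem chkP_sound (r p : ℕ) (M : ℕ → ℕ → ℕ → ℤ) (a : ℕ → ℕ → ℤ) (h : chkP r p M a = true)
    (k : Fin r) (i j : Fin 10) : (p : ℤ) ∣ M k i j - a k i * a k j := by
  have h1 := Nat.eq_of_beq_eq_true (allN_spec _ _ (allN_spec _ _ (allN_spec _ _ h k) i) j)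
  exact Int.natCast_dvd.mpr (Nat.dvd_of_mod_eq_zero h1)

end Crest.Agent.R345.Fast
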