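import Crest.Agent.R345.FastCert
import Crest.Agent.R345.D12

/-! Row 345: kernel checks on the data `D12`, and S0541 from the split test. -/

set_option autoImplicit false

namespace Crest.Agent.R345.Fast

open Crest.Quantum D12

theorem f12_A : chkSymF 15 (fun i => cL.getD i 0) (g3 KL) = true := by decide +kernel

theorem f12_B : chkSymF 15 (fun i => cL.getD i 0) (g3 BL) = true := by decide +kernel

theorem f12_M : allN 20 (chkMF 15 15 (g3 KL) (g3 BL) (g3 ML)) = true := by decide +kernel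

theorem f12_P : chkP 20 211 (g3 ML) (g2 aL) = true := by decide +kernel

theorem S0541_of_split
    (hsplit : ∀ (F : Type) [Field F] [CharP F 211] (u v : Fin 10 → F),
      (∀ k, (∑ i, (D12.a k i : F) * u i) * (∑ j, (D12.a k j : F) * v j) = 0) → u = 0 ∨ v = 0) :
    ∃ Φ₁ Φ₂ : Matrix (Fin 10) (Fin 10) ℂ → Matrix (Fin 10) (Fin 10) ℂ,
      IsLinearMap ℂ Φ₁ ∧ IsLinearMap ℂ Φ₂ ∧ IsPPT Φ₁ ∧ IsPPT Φ₂ ∧
      choiMatrix (Φ₂ ∘ Φ₁) ≠ 0 ∧
      (∀ u v : Fin 10 → ℂ, (∃ w, (choiMatrix (Φ₂ ∘ Φ₁)).mulVec w = fun p => u p.1 * v p.2) →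
        u = 0 ∨ v = 0) ∧
      ¬ IsEntanglementBreaking (Φ₂ ∘ Φ₁) :=
  certF 15 15 20 211 (by norm_num) (fun i => cL.getD i 0) (fun i => cL.getD i 0) (g3 KL) (g3 BL)
    (g3 ML) (g2 aL) f12_A f12_B (allN_spec _ _ f12_M) f12_P 0 0 (by decide +kernel) hsplit

end Crest.Agent.R345.Fast
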