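import Crest.Agent.R345.Fast
import Crest.Agent.R345.Cert
import Crest.Agent.R345.Val

/-! Row 345: the statement of S0541 from Boolean checks on data functions. -/

set_option autoImplicit false

namespace Crest.Agent.R345.Fast

open Crest.Quantum

theorem certF (n m r p : ℕ) (hp : p.Prime) (c d : ℕ → ℕ) (A B M : ℕ → ℕ → ℕ → ℤ)
    (a : ℕ → ℕ → ℤ) (hA : chkSymF n c A = true) (hB : chkSymF m d B = true)
    (hM : ∀ k : Fin r, chkMF n m A B M k = true) (hP : chkP r p M a = true)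
    (x0 s0 : Fin 10)
    (hne : isZ (sumN m fun j => sumN n fun i => Int.mul (Int.mul (Int.ofNat (d j)) (Int.ofNat (c i)))
      (Int.mul (sumN 10 fun q => gm (B j x0 q) (A i q s0))
        (sumN 10 fun q => gm (B j x0 q) (A i q s0)))) = false)
    (hsplit : ∀ (F : Type) [Field F] [CharP F p] (u v : Fin 10 → F),
      (∀ k : Fin r, (∑ i : Fin 10, (a k i : F) * u i) * (∑ j : Fin 10, (a k j : F) * v j) = 0) →
        u = 0 ∨ v = 0) :
    ∃ Φ₁ Φ₂ : Matrix (Fin 10) (Fin 10) ℂ → Matrix (Fin 10) (Fin 10) ℂ,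
      IsLinearMap ℂ Φ₁ ∧ IsLinearMap ℂ Φ₂ ∧ IsPPT Φ₁ ∧ IsPPT Φ₂ ∧
      choiMatrix (Φ₂ ∘ Φ₁) ≠ 0 ∧
      (∀ u v : Fin 10 → ℂ, (∃ w, (choiMatrix (Φ₂ ∘ Φ₁)).mulVec w = fun p => u p.1 * v p.2) →
        u = 0 ∨ v = 0) ∧
      ¬ IsEntanglementBreaking (Φ₂ ∘ Φ₁) := by
  refine cert (fun i : Fin n => c i) (fun i => Matrix.of fun x s : Fin 10 => A i x s)
    (fun j : Fin m => d j) (fun j => Matrix.of fun x s : Fin 10 => B j x s)
    (fun k : Fin r => Matrix.of fun x s : Fin 10 => M k x s)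
    (chkSymF_sound n c A hA) (chkSymF_sound m d B hB)
    (fun k j i => chkMF_sound n m A B M k (hM k) j i) ⟨x0, s0, fun h0 => ?_⟩
    (fun u v h => val_reduce p hp (fun (k : Fin r) (x s : Fin 10) => M k x s)
      (fun (k : Fin r) (x : Fin 10) => a k x) (chkP_sound r p M a hP) hsplit u v h)
  have e : (sumN m fun j => sumN n fun i => Int.mul (Int.mul (Int.ofNat (d j)) (Int.ofNat (c i)))
      (Int.mul (sumN 10 fun q => gm (B j x0 q) (A i q s0))
        (sumN 10 fun q => gm (B j x0 q) (A i q s0)))) = 0 := by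
    rw [← h0, sumN_eq]
    refine Finset.sum_congr rfl fun j _ => ?_
    rw [sumN_eq]
    refine Finset.sum_congr rfl fun i _ => ?_
    rw [sumN_eq]
    simp only [gm_eq, Matrix.mul_apply, Matrix.of_apply]
    show (d j : ℤ) * (c i : ℤ) * (_ * _) = _
    ring
  rw [e] at hne
  exact absurd hne (by decide)

end Crest.Agent.R345.Fast
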