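import Crest.Agent.R345.Chan

/-! Generic facts for row 345: Kraus maps are linear and completely positive; a nonzero Choi matrix
whose range has no product vector is not separable. -/

set_option autoImplicit false

namespace Crest.Agent.R345

open Crest.Quantum Matrix
open scoped ComplexOrder Kronecker

theorem Gen_range_le {ι : Type} [Fintype ι] [DecidableEq ι] {P Q : Matrix ι ι ℂ}
    (hP : P.PosSemidef) (hQ : Q.PosSemidef) (y : ι → ℂ) : ∃ w, (P + Q) *ᵥ w = P *ᵥ y := by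
  by_contra hcon
  have hz : P *ᵥ y ∉ LinearMap.range (P + Q).mulVecLin := by
    rintro ⟨w, hw⟩
    exact hcon ⟨w, hw⟩
  obtain ⟨f, hf1, hf2⟩ := Submodule.exists_dual_map_eq_bot_of_notMem hz inferInstance
  let w : ι → ℂ := fun i => f (Pi.single i 1)
  have hfw : ∀ x : ι → ℂ, f x = w ⬝ᵥ x := by
    intro x
    conv_lhs => rw [pi_eq_sum_univ' x]
    simp [map_sum, w, dotProduct, mul_comm]
  have h0 : ∀ x : ι → ℂ, w ⬝ᵥ ((P + Q) *ᵥ x) = 0 := by
    intro x
    rw [← hfw]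
    have : f ((P + Q) *ᵥ x) ∈ (LinearMap.range (P + Q).mulVecLin).map f :=
      Submodule.mem_map_of_mem ⟨x, rfl⟩
    rw [hf2] at this
    simpa using this
  have h1 := h0 (star w)
  rw [Matrix.add_mulVec, dotProduct_add] at h1
  have hp := hP.dotProduct_mulVec_nonneg (star w)
  have hq := hQ.dotProduct_mulVec_nonneg (star w)
  rw [star_star] at hp hq
  have h2 : w ⬝ᵥ (P *ᵥ star w) = 0 := by
    have : w ⬝ᵥ (P *ᵥ star w) ≤ 0 := by
      rw [← h1]; exact le_add_of_nonneg_right hq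
    exact le_antisymm this hp
  have h3 : P *ᵥ star w = 0 := by
    have := (hP.dotProduct_mulVec_zero_iff (star w)).1 (by rwa [star_star])
    exact this
  apply hf1
  rw [hfw, dotProduct_mulVec]
  have h4 : w ᵥ* P = 0 := by
    have := congrArg star h3
    rw [star_mulVec, star_star, hP.isHermitian.eq, star_zero] at this
    exact this
  rw [h4, zero_dotProduct]

/-- A nonzero separable matrix has a product vector in its range. -/
theorem Gen_sep_prod {k d : Type} [Fintype k] [DecidableEq k] [Fintype d] [DecidableEq d]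
    {C : Matrix (k × d) (k × d) ℂ} (hC : IsSeparable C) (h0 : C ≠ 0) :
    ∃ (u : k → ℂ) (v : d → ℂ), u ≠ 0 ∧ v ≠ 0 ∧ ∃ w, C *ᵥ w = fun p => u p.1 * v p.2 := by
  obtain ⟨r, A, B, hA, hB, rfl⟩ := hC
  obtain ⟨i, -, hi⟩ := Finset.exists_ne_zero_of_sum_ne_zero h0
  have hAi : A i ≠ 0 := fun h => hi (by simp [h])
  have hBi : B i ≠ 0 := fun h => hi (by simp [h])
  obtain ⟨a, ha⟩ : ∃ a, (fun s => A i s a) ≠ 0 := by
    by_contra hc
    push Not at hc
    exact hAi (by ext s a; exact congrFun (hc a) s)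
  obtain ⟨b, hb⟩ : ∃ b, (fun s => B i s b) ≠ 0 := by
    by_contra hc
    push Not at hc
    exact hBi (by ext s b; exact congrFun (hc b) s)
  refine ⟨_, _, ha, hb, ?_⟩
  have hQ : (∑ j ∈ Finset.univ.erase i, A j ⊗ₖ B j).PosSemidef :=
    Matrix.posSemidef_sum _ fun j _ => (hA j).kronecker (hB j)
  obtain ⟨w, hw⟩ := Gen_range_le ((hA i).kronecker (hB i)) hQ (Pi.single (a, b) 1)
  refine ⟨w, ?_⟩
  rw [← Finset.add_sum_erase _ _ (Finset.mem_univ i), hw]
  ext p
  simp [Matrix.mulVec_single_one, Matrix.kroneckerMap_apply]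

theorem Gen_not_EB {n : ℕ} {e : Type} [Fintype e] [DecidableEq e]
    (Φ : Matrix (Fin n) (Fin n) ℂ → Matrix e e ℂ) (h0 : choiMatrix Φ ≠ 0)
    (h : ∀ (u : Fin n → ℂ) (v : e → ℂ),
      (∃ w, (choiMatrix Φ).mulVec w = fun p => u p.1 * v p.2) → u = 0 ∨ v = 0) :
    ¬ IsEntanglementBreaking Φ := by
  intro hE
  let Ω : Fin n × Fin n → ℂ := fun p => if p.1 = p.2 then 1 else 0
  have hM := hE n (Matrix.vecMulVec Ω (star Ω)) (Matrix.posSemidef_vecMulVec_self_star Ω)
  have e1 : blockwise (k := Fin n) Φ (Matrix.vecMulVec Ω (star Ω)) = choiMatrix Φ := by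
    ext ⟨s, i⟩ ⟨t, j⟩
    have : block (Matrix.vecMulVec Ω (star Ω)) s t = Matrix.single s t 1 := by
      ext a b
      by_cases h1 : s = a <;> by_cases h2 : t = b <;>
        simp [block, Matrix.vecMulVec_apply, Ω, h1, h2, Matrix.single_apply]
    simp [blockwise, choiMatrix, this]
  rw [e1] at hM
  obtain ⟨u, v, hu, hv, hw⟩ := Gen_sep_prod hM h0
  rcases h u v hw with h | h
  · exact hu h
  · exact hv h

variable {d e : Type} [Fintype d] [Fintype e] [DecidableEq d] [DecidableEq e]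

/-- weighted Kraus map -/
noncomputable def kraus {ι : Type} [Fintype ι] (c : ι → ℂ) (A : ι → Matrix e d ℂ)
    (X : Matrix d d ℂ) : Matrix e e ℂ := ∑ i, c i • (A i * X * (A i)ᴴ)

omit [Fintype e] [DecidableEq d] [DecidableEq e] in
theorem Gen_kraus_linear {ι : Type} [Fintype ι] (c : ι → ℂ) (A : ι → Matrix e d ℂ) :
    IsLinearMap ℂ (kraus c A) := by
  constructor
  · intro X Y
    simp [kraus, Matrix.mul_add, Matrix.add_mul, Finset.sum_add_distrib]
  · intro a X
    simp only [kraus, Finset.smul_sum, Matrix.mul_smul, Matrix.smul_mul]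
    exact Finset.sum_congr rfl fun i _ => smul_comm _ _ _

theorem Gen_kraus_cp {ι : Type} [Fintype ι] (c : ι → ℂ) (hc : ∀ i, 0 ≤ c i)
    (A : ι → Matrix e d ℂ) : IsCompletelyPositive (kraus c A) := fun k M hM => by
  have : blockwise (k := Fin k) (kraus c A) M =
      ∑ i, blockwise (k := Fin k) (fun X => c i • (A i * X * (A i)ᴴ)) M := by
    ext p q
    simp [blockwise, kraus, Matrix.sum_apply]
  rw [this]
  exact Matrix.posSemidef_sum _ fun i _ => Chan_cp_smul (Chan_cp_conj (A i)) (hc i) k M hM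

theorem Gen_kraus_ppt {ι κ : Type} [Fintype ι] [Fintype κ] (c : ι → ℂ) (hc : ∀ i, 0 ≤ c i)
    (A : ι → Matrix e d ℂ) (c' : κ → ℂ) (hc' : ∀ i, 0 ≤ c' i) (A' : κ → Matrix e d ℂ)
    (h : ∀ X, (kraus c A X)ᵀ = kraus c' A' X) : IsPPT (kraus c A) := by
  refine ⟨Gen_kraus_cp c hc A, ?_⟩
  have : (fun M => (kraus c A M)ᵀ) = kraus c' A' := funext h
  rw [this]
  exact Gen_kraus_cp c' hc' A'

omit [Fintype e] [DecidableEq e] in
theorem Gen_kraus_apply {ι : Type} [Fintype ι] (c : ι → ℂ) (A : ι → Matrix e d ℂ)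
    (X : Matrix d d ℂ) (x y : e) :
    kraus c A X x y = ∑ s, ∑ t, (∑ i, c i * A i x s * star (A i y t)) * X s t := by
  simp only [kraus, Matrix.sum_apply, Matrix.smul_apply, Matrix.mul_apply,
    Matrix.conjTranspose_apply, smul_eq_mul, Finset.mul_sum, Finset.sum_mul]
  rw [Finset.sum_comm]
  conv_rhs => rw [Finset.sum_comm]
  refine Finset.sum_congr rfl fun t _ => ?_
  rw [Finset.sum_comm]
  refine Finset.sum_congr rfl fun s _ => Finset.sum_congr rfl fun i _ => ?_
  ring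

/-- PPT from the symmetry of the Choi tensor in the two output indices. -/
theorem Gen_kraus_ppt_symm {ι : Type} [Fintype ι] (c : ι → ℂ) (hc : ∀ i, 0 ≤ c i)
    (A : ι → Matrix e d ℂ)
    (h : ∀ x y s t, ∑ i, c i * A i x s * star (A i y t) = ∑ i, c i * A i y s * star (A i x t)) :
    IsPPT (kraus c A) :=
  Gen_kraus_ppt c hc A c hc A fun X => by
    ext x y
    rw [Matrix.transpose_apply, Gen_kraus_apply, Gen_kraus_apply]
    exact Finset.sum_congr rfl fun s _ => Finset.sum_congr rfl fun t _ => by rw [h]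

omit [Fintype e] [DecidableEq e] in
theorem Gen_choi_kraus {ι : Type} [Fintype ι] (c : ι → ℂ) (A : ι → Matrix e d ℂ)
    (p q : d × e) :
    choiMatrix (kraus c A) p q = ∑ i, c i * A i p.2 p.1 * star (A i q.2 q.1) := by
  simp only [choiMatrix, Matrix.of_apply, Gen_kraus_apply]
  rw [Finset.sum_eq_single p.1, Finset.sum_eq_single q.1]
  · simp
  · intro b _ hb; simp [Matrix.single_apply, Ne.symm hb]
  · simp
  · intro b _ hb
    exact Finset.sum_eq_zero fun t _ => by simp [Matrix.single_apply, Ne.symm hb]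
  · simp

omit [DecidableEq d] [DecidableEq e] in
theorem Gen_kraus_comp {g ι κ : Type} [Fintype ι] [Fintype κ] (c : ι → ℂ)
    (A : ι → Matrix e d ℂ) (c' : κ → ℂ) (B : κ → Matrix g e ℂ) :
    kraus c' B ∘ kraus c A =
      kraus (fun p : κ × ι => c' p.1 * c p.2) (fun p => B p.1 * A p.2) := by
  funext X
  simp only [Function.comp, kraus, Fintype.sum_prod_type, Matrix.mul_sum, Matrix.sum_mul,
    Finset.smul_sum, Matrix.mul_smul, Matrix.smul_mul, smul_smul, Matrix.conjTranspose_mul,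
    Matrix.mul_assoc]

omit [DecidableEq e] in
/-- a functional killing every Kraus operator kills the range of the Choi matrix -/
theorem Gen_range_kill {ι : Type} [Fintype ι] (c : ι → ℂ) (A : ι → Matrix e d ℂ)
    (m : d → e → ℂ) (hm : ∀ i, ∑ s, ∑ x, m s x * A i x s = 0) (w : d × e → ℂ) :
    ∑ s, ∑ x, m s x * ((choiMatrix (kraus c A)).mulVec w) (s, x) = 0 := by
  have : ∀ s x, m s x * ((choiMatrix (kraus c A)).mulVec w) (s, x) =
      ∑ i, (m s x * A i x s) * (c i * ∑ q, star (A i q.2 q.1) * w q) := by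
    intro s x
    simp only [Matrix.mulVec, dotProduct, Gen_choi_kraus, Finset.mul_sum, Finset.sum_mul]
    rw [Finset.sum_comm]
    exact Finset.sum_congr rfl fun i _ => Finset.sum_congr rfl fun q _ => by ring
  simp only [this]
  rw [Finset.sum_congr rfl fun s _ => Finset.sum_comm, Finset.sum_comm]
  refine Finset.sum_eq_zero fun i _ => ?_
  simp only [← Finset.sum_mul, hm i, zero_mul]

/-- integer certificate for S0541 (same interface as `cert`) -/
theorem Gen_cert {a b r : ℕ} (c : Fin a → ℕ) (A : Fin a → Matrix (Fin 10) (Fin 10) ℤ)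
    (d : Fin b → ℕ) (B : Fin b → Matrix (Fin 10) (Fin 10) ℤ)
    (M : Fin r → Matrix (Fin 10) (Fin 10) ℤ)
    (hA : ∀ x y s t, ∑ i, (c i : ℤ) * A i x s * A i y t = ∑ i, (c i : ℤ) * A i y s * A i x t)
    (hB : ∀ x y s t, ∑ i, (d i : ℤ) * B i x s * B i y t = ∑ i, (d i : ℤ) * B i y s * B i x t)
    (hM : ∀ k j i, ∑ s, ∑ x, M k s x * (B j * A i) x s = 0)
    (hne : ∃ x s, ∑ j, ∑ i, (d j : ℤ) * (c i : ℤ) * ((B j * A i) x s) ^ 2 ≠ 0)
    (hK : ∀ u v : Fin 10 → ℂ,
      (∀ k, ∑ s, ∑ x, (M k s x : ℂ) * u s * v x = 0) → u = 0 ∨ v = 0) :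
    ∃ Φ₁ Φ₂ : Matrix (Fin 10) (Fin 10) ℂ → Matrix (Fin 10) (Fin 10) ℂ,
      IsLinearMap ℂ Φ₁ ∧ IsLinearMap ℂ Φ₂ ∧ IsPPT Φ₁ ∧ IsPPT Φ₂ ∧
      choiMatrix (Φ₂ ∘ Φ₁) ≠ 0 ∧
      (∀ u v : Fin 10 → ℂ, (∃ w, (choiMatrix (Φ₂ ∘ Φ₁)).mulVec w = fun p => u p.1 * v p.2) →
        u = 0 ∨ v = 0) ∧
      ¬ IsEntanglementBreaking (Φ₂ ∘ Φ₁) := by
  let A' : Fin a → Matrix (Fin 10) (Fin 10) ℂ := fun i => (A i).map (Int.cast : ℤ → ℂ)
  let B' : Fin b → Matrix (Fin 10) (Fin 10) ℂ := fun i => (B i).map (Int.cast : ℤ → ℂ)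
  have hBA : ∀ j i x s, (B' j * A' i) x s = (((B j * A i) x s : ℤ) : ℂ) := by
    intro j i x s
    simp [A', B', Matrix.mul_apply]
  have h0 : choiMatrix (kraus (fun i => (d i : ℂ)) B' ∘ kraus (fun i => (c i : ℂ)) A') ≠ 0 := by
    obtain ⟨x, s, hxs⟩ := hne
    intro h
    have h1 := congrFun (congrFun h (s, x)) (s, x)
    rw [Gen_kraus_comp, Gen_choi_kraus, Fintype.sum_prod_type] at h1
    apply hxs
    have : ((∑ j, ∑ i, (d j : ℤ) * (c i : ℤ) * ((B j * A i) x s) ^ 2 : ℤ) : ℂ) = 0 := by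
      rw [← Matrix.zero_apply (α := ℂ) (s, x) (s, x), ← h1]
      push_cast
      refine Finset.sum_congr rfl fun j _ => Finset.sum_congr rfl fun i _ => ?_
      simp only [hBA, star_intCast]
      ring
    exact_mod_cast this
  have hP : ∀ u v : Fin 10 → ℂ, (∃ w, (choiMatrix (kraus (fun i => (d i : ℂ)) B' ∘
      kraus (fun i => (c i : ℂ)) A')).mulVec w = fun p => u p.1 * v p.2) → u = 0 ∨ v = 0 := by
    rintro u v ⟨w, hw⟩
    refine hK u v fun k => ?_
    rw [Gen_kraus_comp] at hw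
    have := Gen_range_kill (fun p : Fin b × Fin a => (d p.1 : ℂ) * (c p.2 : ℂ))
      (fun p => B' p.1 * A' p.2) (fun s x => (M k s x : ℂ)) (fun p => by
        simp only [hBA]
        exact_mod_cast hM k p.1 p.2) w
    rw [hw] at this
    simpa [mul_assoc] using this
  refine ⟨kraus (fun i => (c i : ℂ)) A', kraus (fun i => (d i : ℂ)) B', Gen_kraus_linear _ _,
    Gen_kraus_linear _ _, ?_, ?_, h0, hP, Gen_not_EB _ h0 hP⟩
  · refine Gen_kraus_ppt_symm _ (fun i => Nat.cast_nonneg _) _ fun x y s t => ?_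
    simp only [A', Matrix.map_apply, star_intCast]
    exact_mod_cast hA x y s t
  · refine Gen_kraus_ppt_symm _ (fun i => Nat.cast_nonneg _) _ fun x y s t => ?_
    simp only [B', Matrix.map_apply, star_intCast]
    exact_mod_cast hB x y s t

end Crest.Agent.R345
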