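import Crest.Agent.R345.HsW

set_option autoImplicit false
set_option maxRecDepth 100000

namespace Crest.Agent.R345

theorem hs_ttttt : chkS 211 [true, true, true, true, true] hsW = true := by decide +kernel
theorem hs_ttttf : chkS 211 [true, true, true, true, false] hsW = true := by decide +kernel
theorem hs_tttft : chkS 211 [true, true, true, false, true] hsW = true := by decide +kernel
theorem hs_tttff : chkS 211 [true, true, true, false, false] hsW = true := by decide +kernel
theorem hs_ttftt : chkS 211 [true, true, false, true, true] hsW = true := by decide +kernel
theorem hs_ttftf : chkS 211 [true, true, false, true, false] hsW = true := by decide +kernel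
theorem hs_ttfft : chkS 211 [true, true, false, false, true] hsW = true := by decide +kernel
theorem hs_ttfff : chkS 211 [true, true, false, false, false] hsW = true := by decide +kernel

end Crest.Agent.R345
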