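import Crest.Agent.R345.HsW

set_option autoImplicit false
set_option maxRecDepth 100000

namespace Crest.Agent.R345

theorem hs_ffttt : chkS 211 [false, false, true, true, true] hsW = true := by decide +kernel
theorem hs_ffttf : chkS 211 [false, false, true, true, false] hsW = true := by decide +kernel
theorem hs_fftft : chkS 211 [false, false, true, false, true] hsW = true := by decide +kernel
theorem hs_fftff : chkS 211 [false, false, true, false, false] hsW = true := by decide +kernel
theorem hs_ffftt : chkS 211 [false, false, false, true, true] hsW = true := by decide +kernel
theorem hs_ffftf : chkS 211 [false, false, false, true, false] hsW = true := by decide +kernel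
theorem hs_fffft : chkS 211 [false, false, false, false, true] hsW = true := by decide +kernel
theorem hs_fffff : chkS 211 [false, false, false, false, false] hsW = true := by decide +kernel

end Crest.Agent.R345
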