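import Crest.Agent.R345.Cover

set_option autoImplicit false
set_option maxRecDepth 100000

namespace Crest.Agent.R345

/-- Veronese rows mod 211 of the 20 points -/
def hsW : List (List ℕ) :=
  [[150, 19, 147, 202, 1, 141, 155, 47, 122, 182],
   [103, 37, 117, 196, 1, 83, 11, 137, 69, 121],
   [161, 43, 68, 49, 1, 85, 114, 51, 195, 125],
   [37, 44, 68, 139, 1, 155, 171, 182, 130, 123],
   [136, 66, 68, 163, 1, 33, 76, 34, 187, 79],
   [137, 83, 147, 92, 1, 106, 85, 53, 148, 51],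
   [163, 95, 117, 83, 1, 19, 183, 150, 101, 151],
   [95, 99, 68, 179, 1, 22, 151, 62, 157, 13],
   [20, 130, 126, 11, 1, 186, 177, 203, 6, 101],
   [21, 134, 147, 205, 1, 94, 22, 185, 169, 62],
   [139, 136, 117, 134, 1, 201, 122, 100, 46, 114],
   [173, 157, 126, 122, 1, 68, 29, 193, 73, 208],
   [179, 161, 117, 201, 1, 196, 169, 14, 208, 76],
   [204, 170, 68, 103, 1, 127, 121, 93, 175, 82],
   [30, 175, 126, 183, 1, 102, 118, 65, 9, 209],
   [154, 187, 126, 169, 1, 153, 160, 199, 4, 69],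
   [45, 195, 126, 148, 1, 124, 149, 184, 119, 46],
   [14, 196, 147, 138, 1, 159, 33, 172, 183, 34],
   [100, 201, 147, 207, 1, 133, 127, 176, 11, 93],
   [49, 204, 117, 19, 1, 134, 148, 21, 209, 171]]

end Crest.Agent.R345
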