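import Crest.Agent.R345.Hs0
import Crest.Agent.R345.Hs1
import Crest.Agent.R345.Hs2
import Crest.Agent.R345.Hs3

set_option autoImplicit false
set_option maxRecDepth 100000

namespace Crest.Agent.R345

theorem hs_chk : chk 211 hsW = true := chk_of_five _ _ fun a b c d e =>
  match a, b, c, d, e with
  | true, true, true, true, true => hs_ttttt
  | true, true, true, true, false => hs_ttttf
  | true, true, true, false, true => hs_tttft
  | true, true, true, false, false => hs_tttff
  | true, true, false, true, true => hs_ttftt
  | true, true, false, true, false => hs_ttftf
  | true, true, false, false, true => hs_ttfft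
  | true, true, false, false, false => hs_ttfff
  | true, false, true, true, true => hs_tfttt
  | true, false, true, true, false => hs_tfttf
  | true, false, true, false, true => hs_tftft
  | true, false, true, false, false => hs_tftff
  | true, false, false, true, true => hs_tfftt
  | true, false, false, true, false => hs_tfftf
  | true, false, false, false, true => hs_tffft
  | true, false, false, false, false => hs_tffff
  | false, true, true, true, true => hs_ftttt
  | false, true, true, true, false => hs_ftttf
  | false, true, true, false, true => hs_fttft
  | false, true, true, false, false => hs_fttff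
  | false, true, false, true, true => hs_ftftt
  | false, true, false, true, false => hs_ftftf
  | false, true, false, false, true => hs_ftfft
  | false, true, false, false, false => hs_ftfff
  | false, false, true, true, true => hs_ffttt
  | false, false, true, true, false => hs_ffttf
  | false, false, true, false, true => hs_fftft
  | false, false, true, false, false => hs_fftff
  | false, false, false, true, true => hs_ffftt
  | false, false, false, true, false => hs_ffftf
  | false, false, false, false, true => hs_fffft
  | false, false, false, false, false => hs_fffff

/-- no split of the 20 points, list form -/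
theorem hsplit_list (F : Type) [Field F] [CharP F 211] (u v : Fin 10 → F)
    (H : ∀ w ∈ hsW, (∑ i : Fin 10, ((w.getD i 0 : ℕ) : F) * u i) *
      (∑ i : Fin 10, ((w.getD i 0 : ℕ) : F) * v i) = 0) : u = 0 ∨ v = 0 :=
  cover 211 (by norm_num) hsW (by decide) hs_chk u v H

/-- no split of the 20 points, in the `hsplit` form of `val_reduce`, for any integer matrix `a`
that reduces to `hsW` mod 211 (`ha` by `decide +kernel`) -/
theorem hsplit (a : Fin 20 → Fin 10 → ℤ)
    (ha : (List.ofFn fun k => List.ofFn fun i => (a k i % ((211 : ℕ) : ℤ)).toNat) = hsW)
    (F : Type) [Field F] [CharP F 211] (u v : Fin 10 → F)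
    (H : ∀ k, (∑ i, (a k i : F) * u i) * (∑ j, (a k j : F) * v j) = 0) : u = 0 ∨ v = 0 :=
  cover_int 211 (by norm_num) a (by rw [ha]; exact hs_chk) u v H

end Crest.Agent.R345
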