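import Mathlib
import Crest.Agent.R44.Basic
/-!
# Row 345: a nontrivial complex solution of an integer bilinear system reduces mod `p`
-/

set_option autoImplicit false

namespace Crest.Agent.R345

/-- A nonzero complex vector can be scaled into a valuation ring with one coordinate equal to 1. -/
theorem modp_scale {n : Type*} [Fintype n] (V : ValuationSubring ℂ) (u : n → ℂ) (hu : u ≠ 0) :
    ∃ (c : ℂ) (w : n → V) (a0 : n), w a0 = 1 ∧ ∀ a, (w a : ℂ) = c * u a := by
  classical
  obtain ⟨a1, ha1⟩ := Function.ne_iff.1 hu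
  obtain ⟨a0, -, h0⟩ := Finset.exists_max_image Finset.univ (fun a => V.valuation (u a))
    ⟨a1, Finset.mem_univ _⟩
  have hne : u a0 ≠ 0 := by
    intro h
    have := h0 a1 (Finset.mem_univ _)
    rw [h, map_zero, le_zero_iff, map_eq_zero] at this
    exact ha1 this
  have hv : V.valuation (u a0) ≠ 0 := by simpa using hne
  have hmem : ∀ a, (u a0)⁻¹ * u a ∈ V := by
    intro a
    apply V.mem_of_valuation_le_one
    rw [map_mul, map_inv₀]
    calc (V.valuation (u a0))⁻¹ * V.valuation (u a)
        ≤ (V.valuation (u a0))⁻¹ * V.valuation (u a0) := by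
          gcongr
          exact h0 a (Finset.mem_univ _)
      _ = 1 := inv_mul_cancel₀ hv
  refine ⟨(u a0)⁻¹, fun a => ⟨_, hmem a⟩, a0, ?_, fun a => rfl⟩
  apply Subtype.ext
  simp [inv_mul_cancel₀ hne]

theorem exists_modp (p : ℕ) [hp : Fact p.Prime] {ι n m : Type*} [Fintype n] [Fintype m]
    (N : ι → n → m → ℤ) (u : n → ℂ) (v : m → ℂ) (hu : u ≠ 0) (hv : v ≠ 0)
    (h : ∀ i, ∑ a, ∑ b, (N i a b : ℂ) * u a * v b = 0) :
    ∃ (F : Type) (_ : Field F) (_ : CharP F p) (u1 : n → F) (v1 : m → F),
      u1 ≠ 0 ∧ v1 ≠ 0 ∧ ∀ i, ∑ a, ∑ b, (N i a b : F) * u1 a * v1 b = 0 := by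
  obtain ⟨V, hV⟩ := Crest.Agent.R44.exists_val (K := ℂ) hp.out
  obtain ⟨c, w, a0, hw0, hw⟩ := modp_scale V u hu
  obtain ⟨d, z, b0, hz0, hz⟩ := modp_scale V v hv
  have hp0 : ((p : ℕ) : IsLocalRing.ResidueField V) = 0 := by
    have h1 : ((p : ℕ) : V) ∈ IsLocalRing.maximalIdeal V := by
      rw [ValuationSubring.valuation_lt_one_iff]
      simpa using hV
    have := (IsLocalRing.residue_eq_zero_iff _).2 h1
    simpa using this
  haveI : CharP (IsLocalRing.ResidueField V) p :=
    (CharP.charP_iff_prime_eq_zero hp.out).2 hp0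
  refine ⟨IsLocalRing.ResidueField V, inferInstance, inferInstance,
    fun a => IsLocalRing.residue V (w a), fun b => IsLocalRing.residue V (z b), ?_, ?_, ?_⟩
  · intro h0
    have := congrFun h0 a0
    simp [hw0] at this
  · intro h0
    have := congrFun h0 b0
    simp [hz0] at this
  · intro i
    have key : (∑ a, ∑ b, (N i a b : V) * w a * z b) = 0 := by
      apply Subtype.ext
      have h2 : ((∑ a, ∑ b, (N i a b : V) * w a * z b : V) : ℂ) =
          c * d * ∑ a, ∑ b, (N i a b : ℂ) * u a * v b := by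
        push_cast
        simp only [Finset.mul_sum, hw, hz]
        refine Finset.sum_congr rfl fun a _ => Finset.sum_congr rfl fun b _ => ?_
        ring
      rw [h2, h i]
      simp
    have := congrArg (IsLocalRing.residue V) key
    simpa [map_sum, map_mul] using this

end Crest.Agent.R345
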