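import Mathlib

/-! A fast kernel checker for the split test: columns packed into big numbers. -/

set_option autoImplicit false

namespace Crest.Agent.R345.Pk

def force (x : ℕ) (k : ℕ → Bool) : Bool := Nat.rec (k 0) (fun n _ => k (Nat.succ n)) x

def hd (p T sh c : ℕ) : ℕ := Nat.mod (Nat.mod (Nat.shiftRight c sh) T) p

def nw (p T sh a c0 c : ℕ) : ℕ := Nat.add (Nat.mul a c) (Nat.mul (Nat.sub p (hd p T sh c)) c0)

def el (p T sh a c0 : ℕ) (k : List ℕ → Bool) (inp : List ℕ) : List ℕ → Bool :=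
  List.rec (fun out => k out)
    (fun c _ ih out => force (nw p T sh a c0 c) fun c' => ih (c' :: out)) inp

def fin (k : List ℕ → Bool) (l : List ℕ) : Bool := List.rec true (fun c t _ => k (c :: t)) l

def go (p T sh : ℕ) (k : List ℕ → Bool) (cs : List ℕ) : List ℕ → Bool :=
  List.rec (fun acc => k acc)
    (fun c rest ih acc =>
      Nat.rec (ih (c :: acc))
        (fun a _ => el p T sh (Nat.succ a) c
          (fun l => el p T sh (Nat.succ a) c (fin k) acc l) rest []) (hd p T sh c)) cs

def chk (p T w n : ℕ) : ℕ → List ℕ → List ℕ → Bool :=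
  Nat.rec (fun _ _ _ => false)
    (fun _ ih sh c1 c2 => force (Nat.add sh w) fun sh' =>
      and (go p T sh (fun c1' => ih sh' c1' c2) c1 []) (go p T sh (fun c2' => ih sh' c1 c2') c2 [])) n

theorem force_eq (x : ℕ) (k : ℕ → Bool) : force x k = k x := by cases x <;> rfl

theorem el_eq (p T sh a c0 : ℕ) (k : List ℕ → Bool) : ∀ (inp out : List ℕ),
    el p T sh a c0 k inp out = k ((inp.map (nw p T sh a c0)).reverse ++ out)
  | [], out => rfl
  | c :: t, out => by
    have : el p T sh a c0 k (c :: t) out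
        = force (nw p T sh a c0 c) fun c' => el p T sh a c0 k t (c' :: out) := rfl
    rw [this, force_eq, el_eq p T sh a c0 k t]; simp

def packF (T : ℕ) : ℕ → (ℕ → ℕ) → ℕ
  | 0, _ => 0
  | n + 1, f => f 0 + T * packF T n (fun i => f (i + 1))

theorem packF_lin (T a b : ℕ) : ∀ (n : ℕ) (f g : ℕ → ℕ),
    packF T n (fun i => a * f i + b * g i) = a * packF T n f + b * packF T n g
  | 0, _, _ => by simp [packF]
  | n + 1, f, g => by
    simp only [packF]
    rw [packF_lin T a b n (fun i => f (i + 1)) (fun i => g (i + 1))]; ring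

def fld (T c k : ℕ) : ℕ := c / T ^ k % T

theorem fld_pack (T : ℕ) : ∀ (n : ℕ) (f : ℕ → ℕ) (k : ℕ), (∀ i, f i < T) → k < n →
    fld T (packF T n f) k = f k
  | 0, _, _, _, h => by omega
  | n + 1, f, 0, hf, _ => by
    simp [fld, packF, Nat.mod_eq_of_lt (hf 0)]
  | n + 1, f, k + 1, hf, h => by
    have hT : 0 < T := lt_of_le_of_lt (Nat.zero_le _) (hf 0)
    have ih := fld_pack T n (fun i => f (i + 1)) k (fun i => hf _) (by omega)
    unfold fld at ih ⊢
    simp only [packF]
    rw [pow_succ', ← Nat.div_div_eq_div_mul, Nat.add_mul_div_left _ _ hT,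
      Nat.div_eq_of_lt (hf 0), zero_add, ih]

def Bdd (T N B c : ℕ) : Prop := ∃ f : ℕ → ℕ, c = packF T N f ∧ ∀ i, f i < B

theorem hd_eq (p w k c : ℕ) : hd p (2 ^ w) (w * k) c = fld (2 ^ w) c k % p := by
  show (c >>> (w * k)) % 2 ^ w % p = _
  rw [Nat.shiftRight_eq_div_pow, pow_mul]; rfl

theorem nw_spec (p T N B sh a c0 c : ℕ) (hp : 0 < p) (ha : a < p) (hB : B * (2 * p) ≤ T)
    (h0 : Bdd T N B c0) (h : Bdd T N B c) :
    Bdd T N (B * (2 * p)) (nw p T sh a c0 c) ∧ ∀ j < N,
      fld T (nw p T sh a c0 c) j = a * fld T c j + (p - hd p T sh c) * fld T c0 j := by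
  obtain ⟨f0, rfl, hf0⟩ := h0
  obtain ⟨f, hc, hf⟩ := h
  have e : nw p T sh a (packF T N f0) c
      = packF T N (fun i => a * f i + (p - hd p T sh c) * f0 i) := by
    rw [packF_lin, ← hc]; rfl
  have hb : ∀ i, a * f i + (p - hd p T sh c) * f0 i < B * (2 * p) := fun i => by
    have h1 : a * f i < p * B := Nat.mul_lt_mul'' ha (hf i)
    have h2 : (p - hd p T sh c) * f0 i ≤ p * B := Nat.mul_le_mul (Nat.sub_le _ _) (hf0 i).le
    nlinarith
  have hBT : B ≤ T := le_trans (Nat.le_mul_of_pos_right _ (by omega)) hB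
  refine ⟨⟨_, e, hb⟩, fun j hj => ?_⟩
  rw [e, fld_pack T N _ j (fun i => lt_of_lt_of_le (hb i) hB) hj, hc,
    fld_pack T N f j (fun i => lt_of_lt_of_le (hf i) hBT) hj,
    fld_pack T N f0 j (fun i => lt_of_lt_of_le (hf0 i) hBT) hj]

variable {F : Type} [Field F]

def val (T : ℕ) (P : List (F × ℕ)) (j : ℕ) : F := (P.map fun x => x.1 * (fld T x.2 j : F)).sum

def Zero (P : List (F × ℕ)) : Prop := ∀ x ∈ P, x.1 = 0

def Inv (p T N : ℕ) (P : List (F × ℕ)) : Prop :=
  ∃ B, B * (2 * p) ^ P.length ≤ T ∧ ∀ x ∈ P, Bdd T N B x.2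

theorem val_zero (T : ℕ) (P : List (F × ℕ)) (j : ℕ) (h : Zero P) : val T P j = 0 := by
  unfold val
  refine List.sum_eq_zero fun y hy => ?_
  obtain ⟨x, hx, rfl⟩ := List.mem_map.1 hy
  rw [h x hx, zero_mul]

theorem val_map (p w N B k a c0 : ℕ) [CharP F p] (hp : 0 < p) (ha : a < p)
    (hB : B * (2 * p) ≤ 2 ^ w) (h0 : Bdd (2 ^ w) N B c0) (j : ℕ) (hj : j < N) :
    ∀ (P : List (F × ℕ)), (∀ x ∈ P, Bdd (2 ^ w) N B x.2) →
      val (2 ^ w) (P.map fun x => (x.1, nw p (2 ^ w) (w * k) a c0 x.2)) j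
        = a * val (2 ^ w) P j - val (2 ^ w) P k * (fld (2 ^ w) c0 j : F)
  | [], _ => by simp [val]
  | x :: P, h => by
    have ih := val_map p w N B k a c0 hp ha hB h0 j hj P (fun y hy => h y (by simp [hy]))
    have e := (nw_spec p (2 ^ w) N B (w * k) a c0 x.2 hp ha hB h0 (h x (by simp))).2 j hj
    unfold val at ih ⊢
    simp only [List.map_cons, List.sum_cons]
    rw [ih, e, hd_eq, Nat.cast_add, Nat.cast_mul, Nat.cast_mul,
      Nat.cast_sub (Nat.mod_lt _ hp).le, CharP.cast_eq_zero F p,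
      ← CharP.natCast_eq_natCast_mod F p]
    ring

theorem val_append (T : ℕ) (P Q : List (F × ℕ)) (j : ℕ) :
    val T (P ++ Q) j = val T P j + val T Q j := by simp [val]

theorem val_reverse (T : ℕ) (P : List (F × ℕ)) (j : ℕ) : val T P.reverse j = val T P j := by
  simp [val]

theorem val_cons (T : ℕ) (x : F × ℕ) (P : List (F × ℕ)) (j : ℕ) :
    val T (x :: P) j = x.1 * (fld T x.2 j : F) + val T P j := by simp [val]

theorem go_sound (p w N k : ℕ) [CharP F p] (hp : 0 < p) (G : Prop) (kk : List ℕ → Bool) :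
    ∀ (R A : List (F × ℕ)), Inv p (2 ^ w) N (R ++ A) → val (2 ^ w) (R ++ A) k = 0 →
      go p (2 ^ w) (w * k) kk (R.map Prod.snd) (A.map Prod.snd) = true →
      (∀ P' : List (F × ℕ), Inv p (2 ^ w) N P' →
        (∀ j < N, val (2 ^ w) (R ++ A) j = 0 → val (2 ^ w) P' j = 0) →
        kk (P'.map Prod.snd) = true → Zero P' ∨ G) → Zero (R ++ A) ∨ G
  | [], A, hI, _, hg, hk => hk A hI (fun _ _ h => h) hg
  | x :: R, A, hI, hv, hg, hk => by
    have hgo : go p (2 ^ w) (w * k) kk ((x :: R).map Prod.snd) (A.map Prod.snd) =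
        Nat.rec (go p (2 ^ w) (w * k) kk (R.map Prod.snd) (x.2 :: A.map Prod.snd))
          (fun a _ => el p (2 ^ w) (w * k) (Nat.succ a) x.2
            (fun l => el p (2 ^ w) (w * k) (Nat.succ a) x.2 (fin kk) (A.map Prod.snd) l)
            (R.map Prod.snd) []) (hd p (2 ^ w) (w * k) x.2) := rfl
    rw [hgo] at hg
    have hvv : ∀ j, val (2 ^ w) (R ++ x :: A) j = val (2 ^ w) (x :: R ++ A) j := fun j => by
      simp only [val_append, val_cons, List.cons_append]; ring
    cases hh : hd p (2 ^ w) (w * k) x.2 with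
    | zero =>
      rw [hh] at hg
      obtain ⟨B, hB, hb⟩ := hI
      have := go_sound p w N k hp G kk R (x :: A)
        ⟨B, by simpa [Nat.add_assoc] using hB, fun y hy => hb y (by
          simp only [List.mem_append, List.mem_cons] at hy ⊢; tauto)⟩
        (by rw [hvv]; exact hv) hg (fun P' h1 h2 h3 => hk P' h1 (fun j hj h => h2 j hj (by
          rw [hvv]; exact h)) h3)
      refine this.imp_left fun hz y hy => hz y ?_
      simp only [List.mem_append, List.mem_cons] at hy ⊢; tauto
    | succ a =>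
      rw [hh] at hg
      obtain ⟨B, hB, hb⟩ := hI
      have ha : a + 1 < p := by rw [← hh, hd_eq]; exact Nat.mod_lt _ hp
      have hx : ((fld (2 ^ w) x.2 k : ℕ) : F) = ((a + 1 : ℕ) : F) := by
        rw [← hh, hd_eq, ← CharP.natCast_eq_natCast_mod F p]
      have hne : ((a + 1 : ℕ) : F) ≠ 0 := by
        rw [Ne, CharP.cast_eq_zero_iff F p]
        exact fun hd => absurd (Nat.le_of_dvd (by omega) hd) (by omega)
      have hB' : B * (2 * p) * (2 * p) ^ (R ++ A).length ≤ 2 ^ w := by
        rw [mul_assoc, ← pow_succ']; simpa using hB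
      have hB1 : B * (2 * p) ≤ 2 ^ w :=
        le_trans (Nat.le_mul_of_pos_right _ (by positivity)) hB'
      have h0 : Bdd (2 ^ w) N B x.2 := hb x (by simp)
      set g : F × ℕ → F × ℕ := fun y => (y.1, nw p (2 ^ w) (w * k) (a + 1) x.2 y.2) with hgdef
      have hfin : fin kk (((A.map g).reverse ++ (R.map g).reverse).map Prod.snd) = true := by
        have h1 : el p (2 ^ w) (w * k) (a + 1) x.2
            (fun l => el p (2 ^ w) (w * k) (a + 1) x.2 (fin kk) (A.map Prod.snd) l)
            (R.map Prod.snd) [] = true := hg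
        rw [el_eq, el_eq] at h1
        rw [← h1]
        simp [hgdef, Function.comp_def]
      have hZ : Zero ((A.map g).reverse ++ (R.map g).reverse) → Zero (x :: R ++ A) := by
        intro hz
        have hRA : Zero (R ++ A) := fun y hy => hz (g y) (by
          simp only [List.mem_append, List.mem_reverse] at hy ⊢
          rcases hy with hy | hy
          · exact Or.inr (List.mem_map_of_mem hy)
          · exact Or.inl (List.mem_map_of_mem hy))
        intro y hy
        rw [List.cons_append, List.mem_cons] at hy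
        rcases hy with rfl | hy
        · rw [List.cons_append, val_cons, val_zero _ _ _ hRA, add_zero, hx] at hv
          exact (mul_eq_zero.1 hv).resolve_right hne
        · exact hRA y hy
      cases hP : (A.map g).reverse ++ (R.map g).reverse with
      | nil => left; apply hZ; rw [hP]; intro y hy; simp at hy
      | cons z P =>
        have hkk : kk (((A.map g).reverse ++ (R.map g).reverse).map Prod.snd) = true := by
          rw [hP] at hfin ⊢; exact hfin
        refine (hk _ ⟨B * (2 * p), ?_, ?_⟩ ?_ hkk).imp_left hZ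
        · simpa [Nat.add_comm] using hB'
        · intro y hy
          simp only [List.mem_append, List.mem_reverse, List.mem_map] at hy
          rcases hy with ⟨y, hy, rfl⟩ | ⟨y, hy, rfl⟩
          · exact (nw_spec p _ N B _ _ _ _ hp ha hB1 h0 (hb y (by simp [hy]))).1
          · exact (nw_spec p _ N B _ _ _ _ hp ha hB1 h0 (hb y (by simp [hy]))).1
        · intro j hj hvj
          rw [val_append, val_reverse, val_reverse,
            val_map p w N B k (a + 1) x.2 hp ha hB1 h0 j hj A (fun y hy => hb y (by simp [hy])),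
            val_map p w N B k (a + 1) x.2 hp ha hB1 h0 j hj R (fun y hy => hb y (by simp [hy]))]
          rw [List.cons_append, val_cons, val_append] at hv hvj
          rw [hx] at hv
          linear_combination ((a + 1 : ℕ) : F) * hvj - ((fld (2 ^ w) x.2 j : ℕ) : F) * hv

theorem chk_sound (p w N : ℕ) [CharP F p] (hp : 0 < p) : ∀ (n k : ℕ) (P Q : List (F × ℕ)),
    k + n ≤ N → Inv p (2 ^ w) N P → Inv p (2 ^ w) N Q →
    (∀ j < N, val (2 ^ w) P j = 0 ∨ val (2 ^ w) Q j = 0) →
    chk p (2 ^ w) w n (w * k) (P.map Prod.snd) (Q.map Prod.snd) = true → Zero P ∨ Zero Q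
  | 0, _, _, _, _, _, _, _, h => absurd h (by simp [chk])
  | n + 1, k, P, Q, hk, hP, hQ, H, h => by
    have e : chk p (2 ^ w) w (n + 1) (w * k) (P.map Prod.snd) (Q.map Prod.snd) =
        force (w * k + w) fun sh' =>
          and (go p (2 ^ w) (w * k) (fun c1' => chk p (2 ^ w) w n sh' c1' (Q.map Prod.snd))
            (P.map Prod.snd) [])
          (go p (2 ^ w) (w * k) (fun c2' => chk p (2 ^ w) w n sh' (P.map Prod.snd) c2')
            (Q.map Prod.snd) []) := rfl
    rw [e, force_eq, Bool.and_eq_true, ← Nat.mul_succ] at h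
    rcases H k (by omega) with h0 | h0
    · have := go_sound p w N k hp (Zero Q) _ P [] (by simpa using hP) (by simpa using h0) h.1
        (fun P' h1 h2 h3 => chk_sound p w N hp n (k + 1) P' Q (by omega) h1 hQ
          (fun j hj => (H j hj).imp_left fun h => h2 j hj (by simpa using h)) h3)
      simpa using this
    · have := go_sound p w N k hp (Zero P) _ Q [] (by simpa using hQ) (by simpa using h0) h.2
        (fun P' h1 h2 h3 => (chk_sound p w N hp n (k + 1) P P' (by omega) hP h1
          (fun j hj => (H j hj).imp_right fun h => h2 j hj (by simpa using h)) h3).symm)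
      simpa using this.symm

theorem half_sound (p w n : ℕ) [CharP F p] (hp : 0 < p) (P Q : List (F × ℕ))
    (hP : Inv p (2 ^ w) (n + 1) P) (hQ : Inv p (2 ^ w) (n + 1) Q)
    (H : ∀ j < n + 1, val (2 ^ w) P j = 0 ∨ val (2 ^ w) Q j = 0) (h0 : val (2 ^ w) P 0 = 0)
    (h : go p (2 ^ w) 0 (fun c => chk p (2 ^ w) w n w c (Q.map Prod.snd)) (P.map Prod.snd) [] = true) :
    Zero P ∨ Zero Q := by
  have := go_sound p w (n + 1) 0 hp (Zero Q) _ P [] (by simpa using hP) (by simpa using h0) h
    (fun P' h1 h2 h3 => chk_sound p w (n + 1) hp n 1 P' Q (by omega) h1 hQ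
      (fun j hj => (H j hj).imp_left fun h => h2 j hj (by simpa using h)) (by simpa using h3))
  simpa using this

/-- the split test from packed columns -/
theorem split (p w n d : ℕ) [CharP F p] (hp : 0 < p) (a : ℕ → ℕ → ℕ) (ha : ∀ k i, a k i < p)
    (hw : p * (2 * p) ^ d ≤ 2 ^ w) (T : ℕ) (hT : T = 2 ^ w) (cols : List ℕ)
    (hc : cols = List.ofFn fun i : Fin d => packF T (n + 1) fun k => a k i)
    (h : go p T 0 (fun c => chk p T w n w c cols) cols [] = true) (u v : Fin d → F)
    (H : ∀ k < n + 1, (∑ i : Fin d, (a k i : F) * u i) * (∑ i : Fin d, (a k i : F) * v i) = 0) :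
    u = 0 ∨ v = 0 := by
  subst hT
  let mk : (Fin d → F) → List (F × ℕ) := fun u =>
    List.ofFn fun i : Fin d => (u i, packF (2 ^ w) (n + 1) fun k => a k i)
  have hs : ∀ u, (mk u).map Prod.snd = cols := fun u => by
    rw [hc]; simp [mk, List.map_ofFn, Function.comp_def]
  have hI : ∀ u, Inv p (2 ^ w) (n + 1) (mk u) := fun u =>
    ⟨p, by simpa [mk] using hw, fun x hx => by
      obtain ⟨i, rfl⟩ := List.mem_ofFn.1 hx
      exact ⟨_, rfl, fun k => ha k i⟩⟩
  have hpT : p ≤ 2 ^ w := le_trans (Nat.le_mul_of_pos_right _ (by positivity)) hw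
  have hval : ∀ u, ∀ k < n + 1, val (2 ^ w) (mk u) k = ∑ i : Fin d, (a k i : F) * u i := by
    intro u k hk
    simp only [val, mk, List.map_ofFn, List.sum_ofFn, Function.comp_def]
    refine Finset.sum_congr rfl fun i _ => ?_
    rw [fld_pack _ _ _ k (fun k => lt_of_lt_of_le (ha k i) hpT) hk, mul_comm]
  have hz : ∀ u, Zero (mk u) → u = 0 := fun u hu => funext fun i =>
    hu (u i, packF (2 ^ w) (n + 1) fun k => a k i) (List.mem_ofFn.2 ⟨i, rfl⟩)
  have H' : ∀ j < n + 1, val (2 ^ w) (mk u) j = 0 ∨ val (2 ^ w) (mk v) j = 0 := fun j hj => by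
    rw [hval u j hj, hval v j hj]; exact mul_eq_zero.1 (H j hj)
  rcases H' 0 (by omega) with h0 | h0
  · exact (half_sound p w n hp _ _ (hI u) (hI v) H' h0 (by rw [hs, hs]; exact h)).imp (hz u) (hz v)
  · exact ((half_sound p w n hp _ _ (hI v) (hI u) (fun j hj => (H' j hj).symm) h0
      (by rw [hs, hs]; exact h)).imp (hz v) (hz u)).symm

end Crest.Agent.R345.Pk
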