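import Mathlib

/-! A kernel-checkable test that two non-zero vectors cannot kill, between them, a list of pairs of
integer linear forms. -/

set_option autoImplicit false

namespace Crest.Agent.R345

/-- value of an integer form on a complex vector -/
noncomputable def dot : List ℤ → List ℂ → ℂ
  | a :: l, x :: xs => (a : ℂ) * x + dot l xs
  | _, _ => 0

/-- `a • m - b • l` -/
def comb (a b : ℤ) : List ℤ → List ℤ → List ℤ
  | u :: l, v :: m => (a * v - b * u) :: comb a b l m
  | _, _ => []

/-- eliminate the head coordinate of `m` with the form `a :: l` -/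
def red (a : ℤ) (l : List ℤ) : List ℤ → List ℤ
  | b :: m => comb a b l m
  | [] => []

def allZ : List ℤ → Bool
  | [] => true
  | a :: l => a == 0 && allZ l

/-- `n` bounds the recursion; `L1`, `L2` are the two lists of forms -/
def chk : ℕ → List (List ℤ) → List (List ℤ) → Bool
  | n + 1, (a :: l) :: L1, (b :: m) :: L2 =>
    if a == 0 then allZ l && chk n L1 L2
    else if b == 0 then allZ m && chk n L1 L2
    else (l.isEmpty || chk n (L1.map (red a l)) L2) && (m.isEmpty || chk n L1 (L2.map (red b m)))
  | _, _, _ => false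

theorem dot_allZ : ∀ (l : List ℤ) (x : List ℂ), allZ l = true → dot l x = 0
  | [], _, _ => by simp [dot]
  | _ :: _, [], _ => by simp [dot]
  | a :: l, x :: xs, h => by
    simp only [allZ, Bool.and_eq_true, beq_iff_eq] at h
    simp [dot, h.1, dot_allZ l xs h.2]

theorem dot_comb (a b : ℤ) : ∀ (l m : List ℤ) (x : List ℂ), l.length = x.length →
    m.length = x.length → dot (comb a b l m) x = a * dot m x - b * dot l x
  | [], [], [], _, _ => by simp [dot, comb]
  | u :: l, v :: m, x :: xs, h1, h2 => by
    simp only [List.length_cons, Nat.add_right_cancel_iff] at h1 h2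
    simp only [comb, dot, dot_comb a b l m xs h1 h2]
    push_cast
    ring
  | [], _ :: _, [], _, h => by simp at h
  | _ :: _, _, [], h, _ => by simp at h
  | [], _, _ :: _, h, _ => by simp at h
  | _ :: _, [], _ :: _, _, h => by simp at h

theorem length_comb (a b : ℤ) : ∀ (l m : List ℤ), l.length = m.length →
    (comb a b l m).length = l.length
  | [], [], _ => by simp [comb]
  | u :: l, v :: m, h => by
    simp only [List.length_cons, Nat.add_right_cancel_iff] at h
    simp [comb, length_comb a b l m h]
  | [], _ :: _, h => by simp at h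
  | _ :: _, [], h => by simp at h

theorem dot_zero : ∀ (l : List ℤ) (x : List ℂ), (∀ t ∈ x, t = 0) → dot l x = 0
  | [], _, _ => by simp [dot]
  | _ :: _, [], _ => by simp [dot]
  | a :: l, x :: xs, h => by
    have h1 : x = 0 := h x (by simp)
    simp [dot, h1, dot_zero l xs (fun t ht => h t (by simp [ht]))]

theorem red_spec (a : ℤ) (l : List ℤ) (x : ℂ) (xs : List ℂ) (hl : l.length = xs.length)
    (h0 : dot (a :: l) (x :: xs) = 0) (m : List ℤ) (hm : m.length = xs.length + 1) :
    (red a l m).length = xs.length ∧ dot (red a l m) xs = a * dot m (x :: xs) := by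
  obtain _ | ⟨b, m⟩ := m
  · simp at hm
  · simp only [List.length_cons, Nat.add_right_cancel_iff] at hm
    refine ⟨by rw [red, length_comb _ _ _ _ (by omega), hl], ?_⟩
    rw [red, dot_comb _ _ _ _ _ hl hm]
    simp only [dot] at h0 ⊢
    linear_combination (-(b : ℂ)) * h0

theorem zero_of_tail (a : ℤ) (ha : a ≠ 0) (l : List ℤ) (x : ℂ) (xs : List ℂ)
    (h0 : dot (a :: l) (x :: xs) = 0) (h : ∀ t ∈ xs, t = 0) : ∀ t ∈ x :: xs, t = 0 := by
  simp only [dot, dot_zero l xs h, add_zero, mul_eq_zero, Int.cast_eq_zero, ha, false_or] at h0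
  intro t ht
  rcases List.mem_cons.1 ht with rfl | ht
  · exact h0
  · exact h t ht

theorem chk_sound : ∀ (n : ℕ) (L1 L2 : List (List ℤ)) (x y : List ℂ), chk n L1 L2 = true →
    (∀ l ∈ L1, l.length = x.length) → (∀ l ∈ L2, l.length = y.length) →
    List.Forall₂ (fun l m => dot l x * dot m y = 0) L1 L2 →
    (∀ t ∈ x, t = 0) ∨ (∀ t ∈ y, t = 0) := by
  intro n
  induction n with
  | zero => intro L1 L2 x y h; simp [chk] at h
  | succ n ih =>
    intro L1 L2 x y h h1 h2 hF
    obtain _ | ⟨_ | ⟨a, l⟩, L1⟩ := L1
    · simp [chk] at h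
    · simp [chk] at h
    obtain _ | ⟨_ | ⟨b, m⟩, L2⟩ := L2
    · simp [chk] at h
    · simp [chk] at h
    obtain ⟨hh, hF⟩ := List.forall₂_cons.1 hF
    have h1' : ∀ l ∈ L1, l.length = x.length := fun l hl => h1 l (by simp [hl])
    have h2' : ∀ l ∈ L2, l.length = y.length := fun l hl => h2 l (by simp [hl])
    by_cases ha : a = 0
    · simp only [chk, ha, beq_self_eq_true, if_true, Bool.and_eq_true] at h
      exact ih _ _ _ _ h.2 h1' h2' hF
    by_cases hb : b = 0
    · simp only [chk, hb, beq_self_eq_true, if_true, Bool.and_eq_true, beq_iff_eq, ha,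
        if_false] at h
      exact ih _ _ _ _ h.2 h1' h2' hF
    simp only [chk, beq_iff_eq, ha, hb, if_false, Bool.and_eq_true, Bool.or_eq_true,
      List.isEmpty_iff] at h
    obtain _ | ⟨x0, xs⟩ := x
    · left; simp
    obtain _ | ⟨y0, ys⟩ := y
    · right; simp
    have hl : l.length = xs.length := by simpa using h1 (a :: l) (by simp)
    have hm : m.length = ys.length := by simpa using h2 (b :: m) (by simp)
    rcases mul_eq_zero.1 hh with h0 | h0
    · rcases h.1 with he | hc
      · left
        apply zero_of_tail a ha l x0 xs h0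
        have : xs = [] := List.length_eq_zero_iff.1 (by rw [← hl, he]; rfl)
        simp [this]
      · have := ih _ _ xs (y0 :: ys) hc ?_ h2' ?_
        · exact this.imp_left (zero_of_tail a ha l x0 xs h0)
        · intro l' hl'
          obtain ⟨l'', hl'', rfl⟩ := List.mem_map.1 hl'
          exact (red_spec a l x0 xs hl h0 l'' (h1' _ hl'')).1
        · rw [List.forall₂_map_left_iff]
          refine List.Forall₂.imp (fun _ _ h => h) ?_
          refine (List.forall₂_and_left _ _).2 ⟨h1', hF⟩ |>.imp ?_
          rintro l' m' ⟨e1, e2⟩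
          rw [(red_spec a l x0 xs hl h0 l' e1).2, mul_assoc, e2, mul_zero]
    · rcases h.2 with he | hc
      · right
        apply zero_of_tail b hb m y0 ys h0
        have : ys = [] := List.length_eq_zero_iff.1 (by rw [← hm, he]; rfl)
        simp [this]
      · have := ih _ _ (x0 :: xs) ys hc h1' ?_ ?_
        · exact this.imp_right (zero_of_tail b hb m y0 ys h0)
        · intro l' hl'
          obtain ⟨l'', hl'', rfl⟩ := List.mem_map.1 hl'
          exact (red_spec b m y0 ys hm h0 l'' (h2' _ hl'')).1
        · rw [List.forall₂_map_right_iff]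
          have hF' := List.Forall₂.flip hF
          refine List.Forall₂.flip ?_
          refine (List.forall₂_and_left _ _).2 ⟨h2', hF'⟩ |>.imp ?_
          rintro m' l' ⟨e1, e2⟩
          show dot l' (x0 :: xs) * dot (red b m m') ys = 0
          have e2' : dot l' (x0 :: xs) * dot m' (y0 :: ys) = 0 := e2
          rw [(red_spec b m y0 ys hm h0 m' e1).2, mul_left_comm, e2', mul_zero]

end Crest.Agent.R345
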