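import Crest.Agent.R345.Hsplit
import Crest.Agent.R345.D12

set_option autoImplicit false
set_option maxRecDepth 100000

namespace Crest.Agent.R345

theorem hsplit211 (F : Type) [Field F] [CharP F 211] (u v : Fin 10 → F)
    (H : ∀ k, (∑ i, (D12.a k i : F) * u i) * (∑ j, (D12.a k j : F) * v j) = 0) :
    u = 0 ∨ v = 0 :=
  hsplit D12.a (by decide +kernel) F u v H

end Crest.Agent.R345
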