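import Mathlib

/-! Reduction of a "no product vector" statement from `ℂ` to fields of characteristic `p`
through a valuation subring of `ℂ` lying over `p`. -/

set_option autoImplicit false

namespace Crest.Agent.R345

open Finset

theorem val27_exists (p : ℕ) [hp : Fact p.Prime] :
    ∃ V : ValuationSubring ℂ, V.valuation (p : ℂ) < 1 := by
  let A : Subring ℂ := (Int.castRingHom ℂ).range
  let pA : A := ⟨(p : ℂ), ⟨(p : ℤ), by simp⟩⟩
  have hI : Ideal.span ({pA} : Set A) ≠ ⊤ := by
    rw [Ne, Ideal.span_singleton_eq_top]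
    intro hu
    obtain ⟨b, hb⟩ := hu.exists_right_inv
    obtain ⟨z, hz⟩ := b.2
    have h1 : (p : ℂ) * (z : ℂ) = 1 := by
      have := congrArg (Subtype.val) hb
      simp only [pA, Subring.coe_mul, Subring.coe_one] at this
      rw [← hz] at this
      simpa using this
    have h2 : (p : ℤ) * z = 1 := by exact_mod_cast h1
    have h3 : (p : ℤ) ∣ 1 := ⟨z, h2.symm⟩
    have h4 : p ∣ 1 := by exact_mod_cast h3
    exact hp.out.one_lt.ne' (Nat.dvd_one.mp h4)
  obtain ⟨V, -, hV⟩ := Ideal.image_subset_nonunits_valuationSubring _ hI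
  refine ⟨V, ?_⟩
  have : (p : ℂ) ∈ V.nonunits := hV ⟨pA, Ideal.mem_span_singleton_self _, rfl⟩
  exact V.mem_nonunits_iff.mp this

theorem val27_scale {ι : Type} [Fintype ι] (V : ValuationSubring ℂ) (x : ι → ℂ) (hx : x ≠ 0) :
    ∃ (t : ℂ) (y : ι → V) (i₀ : ι), t ≠ 0 ∧ y i₀ = 1 ∧ ∀ i, x i = t * (y i : ℂ) := by
  obtain ⟨j, hj⟩ : ∃ j, x j ≠ 0 := by
    by_contra h
    push Not at h
    exact hx (funext h)
  have hne : Nonempty ι := ⟨j⟩
  obtain ⟨i₀, -, hi₀⟩ := Finset.exists_max_image (univ : Finset ι) (fun i => V.valuation (x i))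
    univ_nonempty
  have h0 : x i₀ ≠ 0 := by
    intro h
    have := hi₀ j (mem_univ _)
    rw [h, map_zero, le_zero_iff, map_eq_zero] at this
    exact hj this
  refine ⟨x i₀, fun i => ⟨x i / x i₀, ?_⟩, i₀, h0, ?_, fun i => ?_⟩
  · rw [← V.valuation_le_one_iff, map_div₀]
    exact div_le_one_of_le₀ (hi₀ i (mem_univ _)) zero_le
  · ext; simp [h0]
  · simp only; field_simp

theorem val27_field {I A M K : Type} [Fintype I] [Fintype A] [Fintype M] [DecidableEq A]
    (p : ℕ) [hp : Fact p.Prime] (a : K → I → ℤ) (D : M → I → I → ℤ) (m : A → M → ℤ)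
    (ev : K → M → ℤ) (Lf : A → M → ℤ)
    (hD : ∀ k i j, (p : ℤ) ∣ (∑ μ, ev k μ * D μ i j) - a k i * a k j)
    (hm : ∀ k α, (p : ℤ) ∣ ∑ μ, ev k μ * m α μ)
    (hL : ∀ α β, (p : ℤ) ∣ (∑ μ, Lf α μ * m β μ) - if α = β then 1 else 0)
    (F : Type) [Field F] [CharP F p] (n : F) (u v : I → F) (y : A → F)
    (hy : n ≠ 0 ∨ y ≠ 0)
    (hF : ∀ μ, n * ∑ i, ∑ j, (D μ i j : F) * (u i * v j) = ∑ α, y α * (m α μ : F)) (k : K) :
    (∑ i, (a k i : F) * u i) * (∑ j, (a k j : F) * v j) = 0 := by
  classical
  have hz : ∀ z : ℤ, (p : ℤ) ∣ z → (z : F) = 0 := fun z hz =>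
    (CharP.intCast_eq_zero_iff F p z).mpr hz
  by_cases hn : n = 0
  · -- the coefficients are primitive, contradiction with independence mod `p`
    have hc : ∀ α, y α = 0 := by
      intro α
      have h1 : ∑ μ, (Lf α μ : F) * ∑ β, y β * (m β μ : F) = 0 := by
        refine Finset.sum_eq_zero fun μ _ => ?_
        rw [← hF μ, hn]; simp
      have h2 : ∑ μ, (Lf α μ : F) * ∑ β, y β * (m β μ : F)
          = ∑ β, y β * ∑ μ, (Lf α μ : F) * (m β μ : F) := by
        simp only [Finset.mul_sum]
        rw [Finset.sum_comm]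
        refine Finset.sum_congr rfl fun β _ => Finset.sum_congr rfl fun μ _ => by ring
      have h3 : ∀ β, ∑ μ, (Lf α μ : F) * (m β μ : F) = if α = β then 1 else 0 := by
        intro β
        have := hz _ (hL α β)
        push_cast at this
        exact sub_eq_zero.mp this
      rw [h2] at h1
      simpa [h3] using h1
    rcases hy with h0 | h0
    · exact absurd hn h0
    · exact absurd (funext hc) h0
  · have key : (∑ i, (a k i : F) * u i) * (∑ j, (a k j : F) * v j) = 0 := by
      have h1 : ∑ μ, (ev k μ : F) * ∑ β, y β * (m β μ : F) = 0 := by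
        have h2 : ∑ μ, (ev k μ : F) * ∑ β, y β * (m β μ : F)
            = ∑ β, y β * ∑ μ, (ev k μ : F) * (m β μ : F) := by
          simp only [Finset.mul_sum]
          rw [Finset.sum_comm]
          refine Finset.sum_congr rfl fun β _ => Finset.sum_congr rfl fun μ _ => by ring
        rw [h2]
        refine Finset.sum_eq_zero fun β _ => ?_
        have := hz _ (hm k β)
        push_cast at this
        rw [this, mul_zero]
      have h3 : ∀ i j, ∑ μ, (ev k μ : F) * (D μ i j : F) = (a k i : F) * (a k j : F) := by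
        intro i j
        have := hz _ (hD k i j)
        push_cast at this
        exact sub_eq_zero.mp this
      have h4 : ∑ μ, (ev k μ : F) * ∑ i, ∑ j, (D μ i j : F) * (u i * v j)
          = (∑ i, (a k i : F) * u i) * (∑ j, (a k j : F) * v j) := by
        rw [Finset.sum_mul_sum]
        simp only [Finset.mul_sum]
        rw [Finset.sum_comm]
        refine Finset.sum_congr rfl fun i _ => ?_
        rw [Finset.sum_comm]
        refine Finset.sum_congr rfl fun j _ => ?_
        have : (a k i : F) * u i * ((a k j : F) * v j)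
            = (∑ μ, (ev k μ : F) * (D μ i j : F)) * (u i * v j) := by
          rw [h3]; ring
        rw [this, Finset.sum_mul]
        refine Finset.sum_congr rfl fun μ _ => by ring
      apply mul_left_cancel₀ hn
      rw [mul_zero, ← h4, Finset.mul_sum, ← h1]
      refine Finset.sum_congr rfl fun μ _ => ?_
      rw [← hF μ]; ring
    exact key

theorem val27_reduce {I A M K : Type} [Fintype I] [Fintype A] [Fintype M] [DecidableEq A]
    (p : ℕ) [hp : Fact p.Prime] (a : K → I → ℤ) (D : M → I → I → ℤ) (m : A → M → ℤ)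
    (ev : K → M → ℤ) (Lf : A → M → ℤ)
    (hD : ∀ k i j, (p : ℤ) ∣ (∑ μ, ev k μ * D μ i j) - a k i * a k j)
    (hm : ∀ k α, (p : ℤ) ∣ ∑ μ, ev k μ * m α μ)
    (hL : ∀ α β, (p : ℤ) ∣ (∑ μ, Lf α μ * m β μ) - if α = β then 1 else 0)
    (hsplit : ∀ (F : Type) [Field F] [CharP F p] (u v : I → F),
      (∀ k, (∑ i, (a k i : F) * u i) * (∑ j, (a k j : F) * v j) = 0) → u = 0 ∨ v = 0)
    (u v : I → ℂ) (c : A → ℂ)
    (h : ∀ μ, ∑ i, ∑ j, (D μ i j : ℂ) * (u i * v j) = ∑ α, c α * (m α μ : ℂ)) :
    u = 0 ∨ v = 0 := by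
  classical
  by_contra hne
  push Not at hne
  obtain ⟨V, hV⟩ := val27_exists p
  obtain ⟨s, u', i₀, hs, hu1, hu⟩ := val27_scale V u hne.1
  obtain ⟨t, v', j₀, ht, hv1, hv⟩ := val27_scale V v hne.2
  -- joint scaling of `(s * t, c)`
  let x : Option A → ℂ := fun o => o.elim (s * t) c
  have hx : x ≠ 0 := by
    intro h0
    have := congrFun h0 none
    exact mul_ne_zero hs ht this
  obtain ⟨g, y, o₀, hg, hy1, hy⟩ := val27_scale V x hx
  have hV' : ∀ μ, y none * ∑ i, ∑ j, (D μ i j : V) * (u' i * v' j)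
      = ∑ α, y (some α) * (m α μ : V) := by
    intro μ
    apply Subtype.ext
    have h1 := h μ
    have hn : s * t = g * (y none : ℂ) := hy none
    have hs' : ∀ α, c α = g * (y (some α) : ℂ) := fun α => hy (some α)
    apply mul_left_cancel₀ hg
    push_cast
    rw [← mul_assoc, ← hn, Finset.mul_sum (f := fun α => (y (some α) : ℂ) * (m α μ : ℂ))]
    simp only [← mul_assoc, ← hs']
    rw [← h1, Finset.mul_sum]
    refine Finset.sum_congr rfl fun i _ => ?_
    rw [Finset.mul_sum]
    refine Finset.sum_congr rfl fun j _ => ?_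
    rw [hu i, hv j]; ring
  let F := IsLocalRing.ResidueField V
  let r : V →+* F := IsLocalRing.residue V
  have hpF : (p : F) = 0 := by
    have : r (p : V) = 0 := by
      rw [IsLocalRing.residue_eq_zero_iff, ValuationSubring.valuation_lt_one_iff]
      simpa using hV
    simpa using this
  have hch : CharP F p := (CharP.charP_iff_prime_eq_zero hp.out).mpr hpF
  have hF : ∀ μ, r (y none) * ∑ i, ∑ j, (D μ i j : F) * (r (u' i) * r (v' j))
      = ∑ α, r (y (some α)) * (m α μ : F) := by
    intro μ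
    have := congrArg r (hV' μ)
    simpa only [map_sum, map_mul, map_intCast] using this
  have hyy : r (y none) ≠ 0 ∨ (fun α => r (y (some α))) ≠ 0 := by
    rcases o₀ with _ | α
    · left; rw [hy1, map_one]; exact one_ne_zero
    · right
      intro h0
      have := congrFun h0 α
      simp only [hy1, map_one, Pi.zero_apply] at this
      exact one_ne_zero this
  have key := val27_field p a D m ev Lf hD hm hL F (r (y none)) (fun i => r (u' i))
    (fun j => r (v' j)) (fun α => r (y (some α))) hyy hF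
  rcases hsplit F (fun i => r (u' i)) (fun j => r (v' j)) key with h0 | h0
  · have := congrFun h0 i₀
    simp only [hu1, map_one, Pi.zero_apply] at this
    exact one_ne_zero this
  · have := congrFun h0 j₀
    simp only [hv1, map_one, Pi.zero_apply] at this
    exact one_ne_zero this

end Crest.Agent.R345
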